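import Vale.Agent.P097.H407.Hol

/-! Holomorphic dependence of interval integrals and of series on parameters (finite-dimensional
parameter space). -/

open Set Filter Metric Topology MeasureTheory

namespace Vale.Agent.P097.H531

variable {P F : Type*} [NormedAddCommGroup P] [NormedSpace ℂ P]
  [NormedAddCommGroup F] [NormedSpace ℂ F]

/-- Holomorphic dependence of interval integrals on parameters. -/
theorem differentiableOn_intervalIntegral [FiniteDimensional ℂ P] [CompleteSpace F]
    {H : ℝ → P → F} {U : Set P} (hU : IsOpen U) {a b : ℝ} (hab : a ≤ b)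
    (hc : ContinuousOn (fun z : ℝ × P => H z.1 z.2) (Icc a b ×ˢ U))
    (hd : ∀ s ∈ Icc a b, DifferentiableOn ℂ (H s) U) :
    DifferentiableOn ℂ (fun p => ∫ s in a..b, H s p) U := by
  have : ProperSpace P := FiniteDimensional.proper ℂ P
  intro p₀ hp₀
  apply DifferentiableAt.differentiableWithinAt
  obtain ⟨r, hr, hrU⟩ : ∃ r > 0, closedBall p₀ (2 * r) ⊆ U := by
    obtain ⟨r, hr, h⟩ := Metric.isOpen_iff.1 hU p₀ hp₀
    exact ⟨r / 4, by positivity, (closedBall_subset_ball (by linarith)).trans h⟩
  have hcomp : IsCompact (Icc a b ×ˢ closedBall p₀ (2 * r)) :=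
    isCompact_Icc.prod (isCompact_closedBall _ _)
  have hsub : Icc a b ×ˢ closedBall p₀ (2 * r) ⊆ Icc a b ×ˢ U := prod_mono le_rfl hrU
  obtain ⟨C, hC⟩ := hcomp.exists_bound_of_continuousOn (hc.mono hsub)
  have hunif := hcomp.uniformContinuousOn_of_continuous (hc.mono hsub)
  have hball : ∀ x ∈ ball p₀ r, ball x r ⊆ ball p₀ (2 * r) := by
    intro x hx y hy
    rw [mem_ball] at hx hy ⊢
    calc dist y p₀ ≤ dist y x + dist x p₀ := dist_triangle _ _ _
      _ < 2 * r := by linarith
  have hdf : ∀ s ∈ Icc a b, DifferentiableOn ℂ (H s) (ball p₀ (2 * r)) := fun s hs =>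
    (hd s hs).mono (ball_subset_closedBall.trans hrU)
  -- continuity of the derivative in the integration variable
  have hcD : ContinuousOn (fun s => fderiv ℂ (H s) p₀) (Icc a b) := by
    rw [Metric.continuousOn_iff]
    intro s hs ε hε
    obtain ⟨δ, hδ, hδf⟩ := Metric.uniformContinuousOn_iff.1 hunif (ε * r / 2) (by positivity)
    refine ⟨δ, hδ, fun s' hs' hd' => ?_⟩
    have e1 : fderiv ℂ (H s') p₀ - fderiv ℂ (H s) p₀ = fderiv ℂ (fun p => H s' p - H s p) p₀ := by
      have h1 : DifferentiableAt ℂ (H s') p₀ :=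
        (hdf s' hs').differentiableAt (ball_mem_nhds _ (by positivity))
      have h2 : DifferentiableAt ℂ (H s) p₀ :=
        (hdf s hs).differentiableAt (ball_mem_nhds _ (by positivity))
      exact (h1.hasFDerivAt.sub h2.hasFDerivAt).fderiv.symm
    rw [dist_eq_norm, e1]
    have h2 : ‖fderiv ℂ (fun p => H s' p - H s p) p₀‖ ≤ (ε * r / 2) / r := by
      apply Hol.norm_fderiv_le_of_ball hr
      · exact ((hdf s' hs').sub (hdf s hs)).mono (ball_subset_ball (by linarith))
      · intro y hy
        have hy2 : y ∈ closedBall p₀ (2 * r) :=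
          ball_subset_closedBall (ball_subset_ball (by linarith) hy)
        have := hδf (s', y) ⟨hs', hy2⟩ (s, y) ⟨hs, hy2⟩ (by
          rw [Prod.dist_eq]; simpa using hd')
        rw [dist_eq_norm] at this
        exact this.le
    calc _ ≤ (ε * r / 2) / r := h2
      _ = ε / 2 := by field_simp
      _ < ε := by linarith
  have key := hasFDerivAt_integral_of_dominated_of_fderiv_le
    (μ := volume.restrict (Set.Ioc a b))
    (F := fun (x : P) (s : ℝ) => H s x)
    (F' := fun (x : P) (s : ℝ) => fderiv ℂ (H s) x)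
    (x₀ := p₀) (s := ball p₀ r) (bound := fun _ => C / r) (𝕜 := ℂ)
    (ball_mem_nhds p₀ hr) ?_ ?_ ?_ ?_ ?_ ?_
  · simp only [intervalIntegral.integral_of_le hab]
    exact key.differentiableAt
  · filter_upwards [ball_mem_nhds p₀ hr] with x hx
    have h1 : ContinuousOn (fun s => H s x) (Icc a b) :=
      ContinuousOn.comp (f := fun s : ℝ => (s, x)) hc (by fun_prop) fun s hs =>
        ⟨hs, hrU (ball_subset_closedBall (ball_subset_ball (by linarith) hx))⟩
    exact (h1.mono Ioc_subset_Icc_self).aestronglyMeasurable measurableSet_Ioc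
  · have h1 : ContinuousOn (fun s => H s p₀) (Icc a b) :=
      ContinuousOn.comp (f := fun s : ℝ => (s, p₀)) hc (by fun_prop) fun s hs => ⟨hs, hp₀⟩
    exact (h1.integrableOn_compact isCompact_Icc).mono_set Ioc_subset_Icc_self
  · exact (hcD.mono Ioc_subset_Icc_self).aestronglyMeasurable measurableSet_Ioc
  · refine (ae_restrict_iff' measurableSet_Ioc).2 (Eventually.of_forall fun s hs x hx => ?_)
    have hs' : s ∈ Icc a b := Ioc_subset_Icc_self hs
    apply Hol.norm_fderiv_le_of_ball hr
    · exact (hdf s hs').mono (hball x hx)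
    · intro y hy
      exact hC (s, y) ⟨hs', ball_subset_closedBall (hball x hx hy)⟩
  · exact integrable_const _
  · refine (ae_restrict_iff' measurableSet_Ioc).2 (Eventually.of_forall fun s hs x hx => ?_)
    exact ((hdf s (Ioc_subset_Icc_self hs)).differentiableAt
      (isOpen_ball.mem_nhds (ball_subset_ball (by linarith) hx))).hasFDerivAt

/-- Weierstrass: normally convergent series of holomorphic functions. -/
theorem differentiableOn_tsum [FiniteDimensional ℂ P] [CompleteSpace F]
    {g : ℕ → P → F} {u : ℕ → ℝ} (hu : Summable u) {U : Set P} (hU : IsOpen U)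
    (hd : ∀ n, DifferentiableOn ℂ (g n) U) (hb : ∀ n, ∀ p ∈ U, ‖g n p‖ ≤ u n) :
    DifferentiableOn ℂ (fun p => ∑' n, g n p) U := by
  intro p₀ hp₀
  apply DifferentiableAt.differentiableWithinAt
  obtain ⟨r, hr, hrU⟩ : ∃ r > 0, ball p₀ (2 * r) ⊆ U := by
    obtain ⟨r, hr, h⟩ := Metric.isOpen_iff.1 hU p₀ hp₀
    exact ⟨r / 2, by positivity, (ball_subset_ball (by linarith)).trans h⟩
  have hball : ∀ x ∈ ball p₀ r, ball x r ⊆ ball p₀ (2 * r) := by
    intro x hx y hy
    rw [mem_ball] at hx hy ⊢
    calc dist y p₀ ≤ dist y x + dist x p₀ := dist_triangle _ _ _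
      _ < 2 * r := by linarith
  have key := hasFDerivAt_tsum_of_isPreconnected (𝕜 := ℂ) (f := g)
    (f' := fun n x => fderiv ℂ (g n) x) (u := fun n => u n / r) (s := ball p₀ r)
    (hu.div_const r) isOpen_ball (convex_ball p₀ r).isPreconnected
    (fun n x hx => ?_) (fun n x hx => ?_) (mem_ball_self hr)
    (Summable.of_norm_bounded hu (fun n => hb n p₀ hp₀)) (mem_ball_self hr)
  · exact key.differentiableAt
  · exact ((hd n).differentiableAt (hU.mem_nhds
      (hrU (hball x hx (mem_ball_self hr))))).hasFDerivAt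
  · apply Hol.norm_fderiv_le_of_ball hr
    · exact (hd n).mono ((hball x hx).trans hrU)
    · intro y hy
      exact hb n y (hrU (hball x hx hy))

end Vale.Agent.P097.H531
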