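import Vale.Agent.P097.H531.ODE.Ray

/-! Holomorphic total differential equations: existence near a given solution, holomorphic
dependence on the initial value; uniqueness; one complex variable. -/

open Set Filter Metric Topology MeasureTheory

namespace Vale.Agent.P097.H531

variable {X E : Type*} [NormedAddCommGroup X] [NormedSpace ℂ X]
  [NormedAddCommGroup E] [NormedSpace ℂ E] [FiniteDimensional ℂ X] [FiniteDimensional ℂ E]

/-- local boundedness of the derivative on compact sets -/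
theorem exists_fderiv_bound {P F : Type*} [NormedAddCommGroup P] [NormedSpace ℂ P]
    [FiniteDimensional ℂ P] [NormedAddCommGroup F] [NormedSpace ℂ F]
    {R : P → F} {Ω : Set P} (hΩ : IsOpen Ω) (hR : DifferentiableOn ℂ R Ω) {K : Set P}
    (hK : IsCompact K) (hKΩ : K ⊆ Ω) : ∃ C, 0 ≤ C ∧ ∀ p ∈ K, ‖fderiv ℂ R p‖ ≤ C := by
  obtain ⟨C, hC⟩ := hK.exists_bound_of_continuousOn
    ((Hol.continuousOn_fderiv_of_differentiableOn hΩ hR).mono hKΩ)
  exact ⟨max C 0, le_max_right _ _, fun p hp => (hC p hp).trans (le_max_left _ _)⟩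

/-- EXISTENCE of the ray solution near a given solution over a compact convex set, with holomorphic
dependence on the initial value (no integrability). -/
theorem exists_euler {R : X × E → X →L[ℂ] E} {Ω : Set (X × E)} (hΩ : IsOpen Ω)
    (hR : DifferentiableOn ℂ R Ω)
    {K U : Set X} (hK : IsCompact K) (hKc : Convex ℝ K) {x0 : X} (hx0 : x0 ∈ K)
    (hU : IsOpen U) (hKU : K ⊆ U) {f : X → E}
    (hf : ∀ x ∈ U, HasFDerivAt f (R (x, f x)) x) (hfΩ : ∀ x ∈ K, (x, f x) ∈ Ω) :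
    ∃ V : Set X, IsOpen V ∧ Convex ℝ V ∧ K ⊆ V ∧ V ⊆ U ∧ ∃ δ > 0, ∃ F : X × E → E,
      DifferentiableOn ℂ F (V ×ˢ ball (f x0) δ) ∧
      (∀ q ∈ ball (f x0) δ, F (x0, q) = q) ∧
      (∀ x ∈ V, F (x, f x0) = f x) ∧
      (∀ x ∈ V, ∀ q ∈ ball (f x0) δ, (x, F (x, q)) ∈ Ω) ∧
      (∀ x ∈ V, ∀ q ∈ ball (f x0) δ, fderiv ℂ (fun x => F (x, q)) x (x - x0) =
        R (x, F (x, q)) (x - x0)) := by
  have : CompleteSpace E := FiniteDimensional.complete ℂ E
  have : ProperSpace E := FiniteDimensional.proper ℂ E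
  have : ProperSpace X := FiniteDimensional.proper ℂ X
  have hfc : ContinuousOn f U := fun x hx => (hf x hx).continuousAt.continuousWithinAt
  set Ψ : X × E → X × E := fun p => (p.1, p.2 + f p.1) with hΨ
  have hΨc : ContinuousOn Ψ (U ×ˢ univ) := by
    refine continuousOn_fst.prodMk (continuousOn_snd.add ?_)
    exact hfc.comp continuousOn_fst fun p hp => hp.1
  have hN : IsOpen ((U ×ˢ univ) ∩ Ψ ⁻¹' Ω) := hΨc.isOpen_inter_preimage (hU.prod isOpen_univ) hΩ
  have hKN : K ×ˢ ({0} : Set E) ⊆ (U ×ˢ univ) ∩ Ψ ⁻¹' Ω := by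
    rintro ⟨x, w⟩ ⟨hx, hw⟩
    rw [mem_singleton_iff] at hw
    simp only at hw hx
    subst hw
    refine ⟨⟨hKU hx, mem_univ _⟩, ?_⟩
    simp only [hΨ, mem_preimage, zero_add]
    exact hfΩ x hx
  obtain ⟨u, v, hu, hv, hKu, h0v, huv⟩ := generalized_tube_lemma hK isCompact_singleton hN hKN
  obtain ⟨η, hη, hηu⟩ := hK.exists_cthickening_subset_open hu hKu
  obtain ⟨ρ', hρ', hρv'⟩ := Metric.isOpen_iff.1 hv 0 (h0v rfl)
  set ρ := ρ' / 2 with hρdef
  have hρ : 0 < ρ := by positivity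
  have hρv : closedBall (0 : E) ρ ⊆ v := (closedBall_subset_ball (by linarith)).trans hρv'
  set V := thickening η K with hVdef
  have hVo : IsOpen V := isOpen_thickening
  have hVc : Convex ℝ V := hKc.thickening η
  have hKV : K ⊆ V := self_subset_thickening hη K
  have hVK : V ⊆ cthickening η K := thickening_subset_cthickening η K
  have hcpt : IsCompact (cthickening η K) := hK.cthickening
  have hVU : cthickening η K ⊆ U := fun x hx =>
    (huv (show (x, (0 : E)) ∈ u ×ˢ v from ⟨hηu hx, h0v rfl⟩)).1.1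
  have htube : ∀ x ∈ cthickening η K, ∀ z, ‖z - f x‖ ≤ ρ → (x, z) ∈ Ω := by
    intro x hx z hz
    have h1 : (x, z - f x) ∈ u ×ˢ v := ⟨hηu hx, hρv (by simpa using hz)⟩
    have h2 := (huv h1).2
    simpa [hΨ] using h2
  have hcK : IsCompact (Ψ '' (cthickening η K ×ˢ closedBall 0 ρ)) :=
    (hcpt.prod (isCompact_closedBall _ _)).image_of_continuousOn
      (hΨc.mono fun p hp => ⟨hVU hp.1, mem_univ _⟩)
  have hcKΩ : Ψ '' (cthickening η K ×ˢ closedBall 0 ρ) ⊆ Ω := by
    rintro _ ⟨⟨x, w⟩, ⟨hx, hw⟩, rfl⟩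
    exact htube x hx _ (by simpa [hΨ] using hw)
  obtain ⟨Λ, hΛ0, hΛ⟩ := exists_fderiv_bound hΩ hR hcK hcKΩ
  obtain ⟨D, hD⟩ := hcpt.exists_bound_of_continuousOn
    (f := fun x => x - x0) (by fun_prop)
  have hx0V : x0 ∈ V := hKV hx0
  have hlip : ∀ x ∈ V, ∀ z z', ‖z - f x‖ ≤ ρ → ‖z' - f x‖ ≤ ρ →
      ‖R (x, z) - R (x, z')‖ ≤ Λ * ‖z - z'‖ := by
    intro x hx z z' hz hz'
    have hconv : Convex ℝ (closedBall (f x) ρ) := convex_closedBall _ _
    have hder : ∀ w ∈ closedBall (f x) ρ, HasFDerivWithinAt (fun w => R (x, w))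
        ((fderiv ℂ R (x, w)).comp (ContinuousLinearMap.inr ℂ X E)) (closedBall (f x) ρ) w := by
      intro w hw
      have hw' : ‖w - f x‖ ≤ ρ := by rwa [mem_closedBall, dist_eq_norm] at hw
      have h1 := (hR.differentiableAt (hΩ.mem_nhds (htube x (hVK hx) w hw'))).hasFDerivAt
      exact (h1.comp w (hasFDerivAt_prodMk_right x w)).hasFDerivWithinAt
    refine hconv.norm_image_sub_le_of_norm_hasFDerivWithin_le (𝕜 := ℂ)
      (f := fun w => R (x, w)) (x := z') (y := z) hder (fun w hw => ?_)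
      (by rwa [mem_closedBall, dist_eq_norm]) (by rwa [mem_closedBall, dist_eq_norm])
    have hw' : ‖w - f x‖ ≤ ρ := by rwa [mem_closedBall, dist_eq_norm] at hw
    have h2 : (x, w) ∈ Ψ '' (cthickening η K ×ˢ closedBall 0 ρ) :=
      ⟨(x, w - f x), ⟨hVK hx, by simpa using hw'⟩, by simp [hΨ]⟩
    refine (ContinuousLinearMap.opNorm_comp_le _ _).trans ?_
    calc _ ≤ Λ * 1 := mul_le_mul (hΛ _ h2) (ContinuousLinearMap.norm_inr_le_one ℂ X E)
            (norm_nonneg _) hΛ0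
      _ = Λ := mul_one _
  have hRc : ContinuousOn (fun x => R (x, f x)) V := by
    refine hR.continuousOn.comp (continuousOn_id.prodMk (hfc.mono (hVK.trans hVU))) ?_
    intro x hx
    exact htube x (hVK hx) _ (by simpa using hρ.le)
  have S : Sch R f x0 V Ω ρ Λ D (ρ * Real.exp (-(Λ * D))) :=
    { hV := hVo
      hc := hVc
      h0 := hx0V
      hΩ := hΩ
      hR := hR
      hf := fun x hx => (hf x (hVU (hVK hx))).differentiableAt.differentiableWithinAt
      hΛ := hΛ0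
      tube := fun x hx z hz => htube x (hVK hx) z hz
      lip := hlip
      hD := fun x hx => hD x (hVK hx)
      hδ := by positivity
      hδρ := by rw [mul_assoc, ← Real.exp_add, neg_add_cancel, Real.exp_zero, mul_one]
      sol := fun x hx => sol_int hVc hx0V (fun x hx => hf x (hVU (hVK hx))) hRc hx }
  obtain ⟨Z, hZd, hZρ, hZf, hZi⟩ := S.exists_ray
  refine ⟨V, hVo, hVc, hKV, hVK.trans hVU, _, S.hδ, Z, hZd, fun q hq => ?_, hZf,
    fun x hx q hq => S.tube x hx _ (hZρ x hx q hq), fun x hx q hq => ?_⟩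
  · rw [hZi x0 hx0V q hq]
    simp
  · have hzd : DifferentiableOn ℂ (fun x => Z (x, q)) V :=
      hZd.comp (by fun_prop) fun x hx => ⟨hx, hq⟩
    have hzΩ : ∀ x ∈ V, (x, Z (x, q)) ∈ Ω := fun x hx => S.tube x hx _ (hZρ x hx q hq)
    refine euler (r := fun x => R (x, Z (x, q))) hVo hVc hx0V hzd ?_ (q := q)
      (fun x hx => hZi x hx q hq) hx
    exact hR.continuousOn.comp (continuousOn_id.prodMk hzd.continuousOn) hzΩ

/-- EXISTENCE near a given solution over a compact convex set, with holomorphic dependence on the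
initial value. -/
theorem exists_total {R : X × E → X →L[ℂ] E} {Ω : Set (X × E)} (hΩ : IsOpen Ω)
    (hR : DifferentiableOn ℂ R Ω)
    (hI : ∀ p ∈ Ω, ∀ u v : X, fderiv ℂ R p (u, R p u) v = fderiv ℂ R p (v, R p v) u)
    {K U : Set X} (hK : IsCompact K) (hKc : Convex ℝ K) {x0 : X} (hx0 : x0 ∈ K)
    (hU : IsOpen U) (hKU : K ⊆ U) {f : X → E}
    (hf : ∀ x ∈ U, HasFDerivAt f (R (x, f x)) x) (hfΩ : ∀ x ∈ K, (x, f x) ∈ Ω) :
    ∃ V : Set X, IsOpen V ∧ Convex ℝ V ∧ K ⊆ V ∧ V ⊆ U ∧ ∃ δ > 0, ∃ F : X × E → E,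
      DifferentiableOn ℂ F (V ×ˢ ball (f x0) δ) ∧
      (∀ q ∈ ball (f x0) δ, F (x0, q) = q) ∧
      (∀ x ∈ V, F (x, f x0) = f x) ∧
      (∀ x ∈ V, ∀ q ∈ ball (f x0) δ, (x, F (x, q)) ∈ Ω) ∧
      (∀ x ∈ V, ∀ q ∈ ball (f x0) δ, HasFDerivAt (fun x => F (x, q)) (R (x, F (x, q))) x) := by
  obtain ⟨V, hVo, hVc, hKV, hVU, δ, hδ, Z, hZd, hZ0, hZf, hZΩ, hZe⟩ :=
    exists_euler hΩ hR hK hKc hx0 hU hKU hf hfΩ
  refine ⟨V, hVo, hVc, hKV, hVU, δ, hδ, Z, hZd, hZ0, hZf, hZΩ, fun x hx q hq => ?_⟩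
  exact total_of_euler hΩ hR hI hVo hVc (hKV hx0)
    (hZd.comp (by fun_prop) fun x hx => ⟨hx, hq⟩) (fun x hx => hZΩ x hx q hq)
    (fun y hy => hZe y hy q hq) hx

/-- UNIQUENESS on preconnected open sets. -/
theorem unique {R : X × E → X →L[ℂ] E} {Ω : Set (X × E)} (hΩ : IsOpen Ω)
    (hR : DifferentiableOn ℂ R Ω) {U : Set X} (hU : IsOpen U) (hUc : IsPreconnected U)
    {f g : X → E} (hf : ∀ x ∈ U, HasFDerivAt f (R (x, f x)) x)
    (hg : ∀ x ∈ U, HasFDerivAt g (R (x, g x)) x) {x0 : X} (hx0 : x0 ∈ U)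
    (hfΩ : (x0, f x0) ∈ Ω) (h0 : f x0 = g x0) :
    EqOn f g U := by
  have : CompleteSpace E := FiniteDimensional.complete ℂ E
  have : ProperSpace E := FiniteDimensional.proper ℂ E
  have : ProperSpace X := FiniteDimensional.proper ℂ X
  have hfc : ContinuousOn f U := fun x hx => (hf x hx).continuousAt.continuousWithinAt
  have hgc : ContinuousOn g U := fun x hx => (hg x hx).continuousAt.continuousWithinAt
  -- analyticity reduces the claim to a neighbourhood of `x0`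
  have hfa : AnalyticOnNhd ℂ f U := Hol.analyticOnNhd_of_differentiableOn hU
    fun x hx => (hf x hx).differentiableAt.differentiableWithinAt
  have hga : AnalyticOnNhd ℂ g U := Hol.analyticOnNhd_of_differentiableOn hU
    fun x hx => (hg x hx).differentiableAt.differentiableWithinAt
  refine hfa.eqOn_of_preconnected_of_eventuallyEq hga hUc hx0 ?_
  -- a closed ball in which all segments stay in `Ω`
  have hconf : ContinuousAt (fun x => (x, f x)) x0 :=
    continuousAt_id.prodMk (hf x0 hx0).continuousAt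
  have hcong : ContinuousAt (fun x => (x, g x)) x0 :=
    continuousAt_id.prodMk (hg x0 hx0).continuousAt
  obtain ⟨ρ, hρ, hρΩ⟩ := Metric.isOpen_iff.1 hΩ _ hfΩ
  obtain ⟨C, hC0, hC⟩ := exists_fderiv_bound hΩ hR (isCompact_closedBall (x0, f x0) (ρ / 2))
    ((closedBall_subset_ball (by linarith)).trans hρΩ)
  have hev : ∀ᶠ x in 𝓝 x0, x ∈ U ∧ (x, f x) ∈ closedBall (x0, f x0) (ρ / 2) ∧
      (x, g x) ∈ closedBall (x0, f x0) (ρ / 2) := by
    have h1 := hconf (closedBall_mem_nhds (x0, f x0) (by positivity : 0 < ρ / 2))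
    have h2 : ∀ᶠ x in 𝓝 x0, (x, g x) ∈ closedBall (x0, g x0) (ρ / 2) :=
      hcong (closedBall_mem_nhds (x0, g x0) (by positivity : 0 < ρ / 2))
    rw [← h0] at h2
    filter_upwards [hU.mem_nhds hx0, h1, h2] with x a b c using ⟨a, b, c⟩
  obtain ⟨r, hr, hrb⟩ := Metric.eventually_nhds_iff_ball.1 hev
  filter_upwards [ball_mem_nhds x0 hr] with y hy
  -- Groenwall along the segment
  have hm : ∀ s ∈ Icc (0 : ℝ) 1, seg x0 s y ∈ ball x0 r := fun s hs =>
    seg_mem (convex_ball x0 r) (mem_ball_self hr) hy hs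
  have hd : ∀ s ∈ Icc (0 : ℝ) 1, HasDerivAt (fun s => f (seg x0 s y) - g (seg x0 s y))
      ((R (seg x0 s y, f (seg x0 s y)) - R (seg x0 s y, g (seg x0 s y))) (y - x0)) s := by
    intro s hs
    have hsU := (hrb _ (hm s hs)).1
    exact (hasDerivAt_comp_seg (hf _ hsU)).sub (hasDerivAt_comp_seg (hg _ hsU))
  have hgr := norm_le_gronwallBound_of_norm_deriv_right_le
    (f := fun s => f (seg x0 s y) - g (seg x0 s y))
    (f' := fun s => (R (seg x0 s y, f (seg x0 s y)) - R (seg x0 s y, g (seg x0 s y))) (y - x0))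
    (δ := 0) (K := C * ‖y - x0‖) (ε := 0) (a := 0) (b := 1)
    (fun s hs => (hd s hs).continuousAt.continuousWithinAt)
    (fun s hs => (hd s (Ico_subset_Icc_self hs)).hasDerivWithinAt) (by simp [h0]) (by
      intro s hs
      have hs' := Ico_subset_Icc_self hs
      obtain ⟨-, hfb, hgb⟩ := hrb _ (hm s hs')
      have hconv : Convex ℝ (closedBall (x0, f x0) (ρ / 2)) := convex_closedBall _ _
      have h1 : ‖R (seg x0 s y, f (seg x0 s y)) - R (seg x0 s y, g (seg x0 s y))‖ ≤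
          C * ‖(seg x0 s y, f (seg x0 s y)) - (seg x0 s y, g (seg x0 s y))‖ := by
        refine hconv.norm_image_sub_le_of_norm_hasFDerivWithin_le (𝕜 := ℂ) (f := R)
          (f' := fun p => fderiv ℂ R p) (fun p hp => ?_) (fun p hp => hC p hp) hgb hfb
        exact (hR.differentiableAt (hΩ.mem_nhds
          (hρΩ (closedBall_subset_ball (by linarith) hp)))).hasFDerivAt.hasFDerivWithinAt
      have h2 : ‖(seg x0 s y, f (seg x0 s y)) - (seg x0 s y, g (seg x0 s y))‖ =
          ‖f (seg x0 s y) - g (seg x0 s y)‖ := by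
        simp [Prod.norm_def]
      rw [h2] at h1
      rw [add_zero]
      calc _ ≤ ‖R (seg x0 s y, f (seg x0 s y)) - R (seg x0 s y, g (seg x0 s y))‖ * ‖y - x0‖ :=
            ContinuousLinearMap.le_opNorm _ _
        _ ≤ (C * ‖f (seg x0 s y) - g (seg x0 s y)‖) * ‖y - x0‖ :=
            mul_le_mul_of_nonneg_right h1 (norm_nonneg _)
        _ = _ := by ring) 1 ⟨zero_le_one, le_rfl⟩
  rw [gronwallBound_ε0_δ0, norm_le_zero_iff] at hgr
  simpa [sub_eq_zero] using hgr

/-- LOCAL EXISTENCE (Frobenius) with holomorphic dependence on the initial value. -/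
theorem exists_total_local {R : X × E → X →L[ℂ] E} {Ω : Set (X × E)} (hΩ : IsOpen Ω)
    (hR : DifferentiableOn ℂ R Ω)
    (hI : ∀ p ∈ Ω, ∀ u v : X, fderiv ℂ R p (u, R p u) v = fderiv ℂ R p (v, R p v) u)
    {x0 : X} {q0 : E} (h0 : (x0, q0) ∈ Ω) :
    ∃ r > 0, ∃ F : X × E → E,
      DifferentiableOn ℂ F (ball x0 r ×ˢ ball q0 r) ∧
      (∀ q ∈ ball q0 r, F (x0, q) = q) ∧
      (∀ x ∈ ball x0 r, ∀ q ∈ ball q0 r, (x, F (x, q)) ∈ Ω) ∧
      (∀ x ∈ ball x0 r, ∀ q ∈ ball q0 r,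
        HasFDerivAt (fun x => F (x, q)) (R (x, F (x, q))) x) := by
  have : ProperSpace X := FiniteDimensional.proper ℂ X
  -- state space `ℂ × E`, scaled equation
  set T : X × (ℂ × E) → X × E := fun p => (x0 + p.2.1 • p.1, p.2.2) with hT
  have hTd : Differentiable ℂ T := by
    simp only [hT]; fun_prop
  set R' : X × (ℂ × E) → X →L[ℂ] (ℂ × E) := fun p =>
    (ContinuousLinearMap.inr ℂ ℂ E).comp (p.2.1 • R (T p)) with hR'
  have hΩ' : IsOpen (T ⁻¹' Ω) := hΩ.preimage hTd.continuous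
  have hRT : ∀ p ∈ T ⁻¹' Ω, HasFDerivAt (fun p => p.2.1 • R (T p))
      (p.2.1 • (fderiv ℂ R (T p)).comp (fderiv ℂ T p) +
        ((ContinuousLinearMap.fst ℂ ℂ E).comp (ContinuousLinearMap.snd ℂ X (ℂ × E))).smulRight
          (R (T p))) p := by
    intro p hp
    have h1 : HasFDerivAt (fun p : X × (ℂ × E) => p.2.1)
        ((ContinuousLinearMap.fst ℂ ℂ E).comp (ContinuousLinearMap.snd ℂ X (ℂ × E))) p :=
      ((ContinuousLinearMap.fst ℂ ℂ E).comp (ContinuousLinearMap.snd ℂ X (ℂ × E))).hasFDerivAt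
    have h2 : HasFDerivAt (fun p => R (T p)) ((fderiv ℂ R (T p)).comp (fderiv ℂ T p)) p :=
      ((hR.differentiableAt (hΩ.mem_nhds hp)).hasFDerivAt).comp p (hTd p).hasFDerivAt
    exact h1.smul h2
  have hRd : ∀ p ∈ T ⁻¹' Ω, HasFDerivAt R'
      ((ContinuousLinearMap.compL ℂ X E (ℂ × E) (ContinuousLinearMap.inr ℂ ℂ E)).comp
      (p.2.1 • (fderiv ℂ R (T p)).comp (fderiv ℂ T p) +
        ((ContinuousLinearMap.fst ℂ ℂ E).comp (ContinuousLinearMap.snd ℂ X (ℂ × E))).smulRight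
          (R (T p)))) p := by
    intro p hp
    exact (ContinuousLinearMap.compL ℂ X E (ℂ × E)
      (ContinuousLinearMap.inr ℂ ℂ E)).hasFDerivAt.comp p (hRT p hp)
  have hTf : ∀ p : X × (ℂ × E), ∀ u : X, ∀ w : E,
      fderiv ℂ T p (u, ((0 : ℂ), w)) = (p.2.1 • u, w) := by
    intro p u w
    have h1 : HasFDerivAt T (((p.2.1 • ContinuousLinearMap.fst ℂ X (ℂ × E)) +
        ((ContinuousLinearMap.fst ℂ ℂ E).comp (ContinuousLinearMap.snd ℂ X (ℂ × E))).smulRight
          p.1).prod ((ContinuousLinearMap.snd ℂ ℂ E).comp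
            (ContinuousLinearMap.snd ℂ X (ℂ × E)))) p := by
      have a1 : HasFDerivAt (fun p : X × (ℂ × E) => p.2.1)
        ((ContinuousLinearMap.fst ℂ ℂ E).comp (ContinuousLinearMap.snd ℂ X (ℂ × E))) p :=
        ((ContinuousLinearMap.fst ℂ ℂ E).comp (ContinuousLinearMap.snd ℂ X (ℂ × E))).hasFDerivAt
      have a2 : HasFDerivAt (fun p : X × (ℂ × E) => p.1) (ContinuousLinearMap.fst ℂ X (ℂ × E)) p :=
        hasFDerivAt_fst
      have a3 : HasFDerivAt (fun p : X × (ℂ × E) => p.2.2)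
        ((ContinuousLinearMap.snd ℂ ℂ E).comp (ContinuousLinearMap.snd ℂ X (ℂ × E))) p :=
        ((ContinuousLinearMap.snd ℂ ℂ E).comp (ContinuousLinearMap.snd ℂ X (ℂ × E))).hasFDerivAt
      exact ((a1.smul a2).const_add x0).prodMk a3
    rw [h1.fderiv]
    simp
  have hI' : ∀ p ∈ T ⁻¹' Ω, ∀ u v : X,
      fderiv ℂ R' p (u, R' p u) v = fderiv ℂ R' p (v, R' p v) u := by
    intro p hp u v
    have h2 : ∀ u v : X, fderiv ℂ R' p (u, R' p u) v =
        ContinuousLinearMap.inr ℂ ℂ E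
          (p.2.1 • p.2.1 • fderiv ℂ R (T p) (u, R (T p) u) v) := by
      intro u v
      rw [(hRd p hp).fderiv]
      have e1 : R' p u = ((0 : ℂ), p.2.1 • R (T p) u) := by simp [hR']
      rw [e1]
      simp only [ContinuousLinearMap.coe_comp, Function.comp_apply,
        ContinuousLinearMap.compL_apply, add_apply, smul_apply, hTf,
        ContinuousLinearMap.smulRight_apply]
      have e2 : ((p.2.1 • u : X), p.2.1 • R (T p) u) = p.2.1 • (u, R (T p) u) := rfl
      rw [e2, map_smul]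
      simp
    rw [h2, h2, hI _ hp]
  obtain ⟨V, hVo, hVc, hKV, -, δ, hδ, F, hFd, hF0, -, hFΩ, hFD⟩ := exists_total hΩ'
    (fun p hp => (hRd p hp).differentiableAt.differentiableWithinAt) hI'
    (isCompact_closedBall (0 : X) 1) (convex_closedBall 0 1) (mem_closedBall_self zero_le_one)
    isOpen_univ (subset_univ _) (f := fun _ => ((0 : ℂ), q0))
    (fun x _ => by
      have : R' (x, ((0 : ℂ), q0)) = 0 := by
        ext v <;> simp [hR']
      rw [this]; exact hasFDerivAt_const _ _)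
    (fun x _ => by simpa [hT] using h0)
  have h0V : (0 : X) ∈ V := hKV (mem_closedBall_self zero_le_one)
  set l : ℂ := ((δ / 2 : ℝ) : ℂ) with hl
  have hl0 : l ≠ 0 := by rw [hl]; exact_mod_cast (by positivity : (δ / 2 : ℝ) ≠ 0)
  have hln : ‖l‖ = δ / 2 := by rw [hl, Complex.norm_real, Real.norm_of_nonneg (by positivity)]
  have hmem : ∀ q ∈ ball q0 (δ / 2), (l, q) ∈ ball ((0 : ℂ), q0) δ := by
    intro q hq
    rw [mem_ball, Prod.dist_eq]
    apply max_lt
    · rw [dist_zero_right, hln]; linarith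
    · exact (mem_ball.1 hq).trans (by linarith)
  have hsV : ∀ x ∈ ball x0 (δ / 2), l⁻¹ • (x - x0) ∈ V := by
    intro x hx
    apply hKV
    rw [mem_closedBall, dist_zero_right, norm_smul, norm_inv, hln]
    rw [mem_ball, dist_eq_norm] at hx
    rw [inv_mul_le_iff₀ (by positivity)]; linarith
  have hfst : ∀ q ∈ ball q0 (δ / 2), ∀ s ∈ V, (F (s, (l, q))).1 = l := by
    intro q hq s hs
    have hd : ∀ s ∈ V, HasFDerivAt (fun s => (F (s, (l, q))).1) (0 : X →L[ℂ] ℂ) s := by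
      intro s hs
      have h1 := (ContinuousLinearMap.fst ℂ ℂ E).hasFDerivAt.comp s (hFD s hs _ (hmem q hq))
      refine h1.congr_fderiv ?_
      ext v; simp [hR']
    have h2 := hVo.is_const_of_fderiv_eq_zero hVc.isPreconnected
      (fun s hs => (hd s hs).differentiableAt.differentiableWithinAt)
      (fun s hs => (hd s hs).fderiv) hs h0V
    rw [h2, hF0 _ (hmem q hq)]
  refine ⟨δ / 2, by positivity, fun p => (F (l⁻¹ • (p.1 - x0), (l, p.2))).2, ?_, ?_, ?_, ?_⟩
  · apply DifferentiableOn.snd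
    refine hFd.comp (by fun_prop) ?_
    intro p hp
    exact ⟨hsV _ hp.1, hmem _ hp.2⟩
  · intro q hq
    simp only [sub_self, smul_zero]
    rw [hF0 _ (hmem q hq)]
  · intro x hx q hq
    have h1 := hFΩ _ (hsV x hx) _ (hmem q hq)
    simp only [mem_preimage, hT, hfst q hq _ (hsV x hx), smul_inv_smul₀ hl0,
      add_sub_cancel] at h1
    exact h1
  · intro x hx q hq
    have h1 := hFD _ (hsV x hx) _ (hmem q hq)
    have h2 : HasFDerivAt (fun x : X => l⁻¹ • (x - x0)) (l⁻¹ • ContinuousLinearMap.id ℂ X) x :=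
      ((hasFDerivAt_id x).sub_const x0).const_smul l⁻¹
    have h3 := (ContinuousLinearMap.snd ℂ ℂ E).hasFDerivAt.comp x (h1.comp x h2)
    refine h3.congr_fderiv ?_
    ext v
    have e1 : T (l⁻¹ • (x - x0), F (l⁻¹ • (x - x0), (l, q))) =
        (x, (F (l⁻¹ • (x - x0), (l, q))).2) := by
      simp only [hT, hfst q hq _ (hsV x hx), smul_inv_smul₀ hl0, add_sub_cancel]
    simp only [ContinuousLinearMap.coe_comp, Function.comp_apply, hR', e1,
      hfst q hq _ (hsV x hx), smul_apply, ContinuousLinearMap.inr_apply,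
      ContinuousLinearMap.coe_snd', ContinuousLinearMap.coe_id', id_eq, map_smul]
    rw [smul_smul, inv_mul_cancel₀ hl0, one_smul]

end Vale.Agent.P097.H531
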