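import Vale.Agent.P097.H531.ODE.Flow

/-! One complex variable: systems `z' = G(x, z)` and scalar equations
`h^(M+1) = φ(x, h, ..., h^(M))`. -/

open Set Filter Metric Topology MeasureTheory

namespace Vale.Agent.P097.H531

variable {E : Type*} [NormedAddCommGroup E] [NormedSpace ℂ E]

/-- right side of a one-variable system as a total differential equation -/
noncomputable def rhs (G : ℂ × E → E) : ℂ × E → ℂ →L[ℂ] E := fun p =>
  ContinuousLinearMap.toSpanSingletonCLE (𝕜 := ℂ) (G p)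

theorem rhs_apply (G : ℂ × E → E) (p : ℂ × E) (v : ℂ) : rhs G p v = v • G p := by
  simp [rhs]

theorem hasFDerivAt_rhs {G : ℂ × E → E} {f : ℂ → E} {p : ℂ × E} {x : ℂ} :
    HasFDerivAt f (rhs G p) x ↔ HasDerivAt f (G p) x := by
  rw [hasDerivAt_iff_hasFDerivAt]
  have : rhs G p = ContinuousLinearMap.toSpanSingleton ℂ (G p) := by
    ext; simp [rhs]
  rw [this]

theorem rhs_diff {G : ℂ × E → E} {Ω : Set (ℂ × E)} (hG : DifferentiableOn ℂ G Ω) :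
    DifferentiableOn ℂ (rhs G) Ω := by
  unfold rhs
  exact ((ContinuousLinearMap.toSpanSingletonCLE (𝕜 := ℂ) (E := E) :
    E ≃L[ℂ] (ℂ →L[ℂ] E)) : E →L[ℂ] (ℂ →L[ℂ] E)).differentiable.comp_differentiableOn hG

theorem rhs_int {G : ℂ × E → E} {Ω : Set (ℂ × E)} (hΩ : IsOpen Ω) (hG : DifferentiableOn ℂ G Ω) :
    ∀ p ∈ Ω, ∀ u v : ℂ, fderiv ℂ (rhs G) p (u, rhs G p u) v =
      fderiv ℂ (rhs G) p (v, rhs G p v) u := by
  intro p hp u v
  have h1 : HasFDerivAt (rhs G) (((ContinuousLinearMap.toSpanSingletonCLE (𝕜 := ℂ) (E := E) :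
    E ≃L[ℂ] (ℂ →L[ℂ] E)) : E →L[ℂ] (ℂ →L[ℂ] E)).comp (fderiv ℂ G p)) p :=
    ((ContinuousLinearMap.toSpanSingletonCLE (𝕜 := ℂ) (E := E) :
    E ≃L[ℂ] (ℂ →L[ℂ] E)) : E →L[ℂ] (ℂ →L[ℂ] E)).hasFDerivAt.comp p
      (hG.differentiableAt (hΩ.mem_nhds hp)).hasFDerivAt
  rw [h1.fderiv]
  have h2 : ∀ u : ℂ, (u, rhs G p u) = u • ((1 : ℂ), G p) := fun u => by
    rw [rhs_apply]; simp
  rw [h2, h2, map_smul, map_smul]
  simp only [smul_apply, ContinuousLinearMap.coe_comp, Function.comp_apply,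
    ContinuousLinearEquiv.coe_coe, ContinuousLinearMap.toSpanSingletonCLE_apply_apply]
  rw [smul_smul, smul_smul, mul_comm]

section
variable [FiniteDimensional ℂ E]

/-- EXISTENCE near a given solution on a compact convex set. -/
theorem exists_flow {G : ℂ × E → E} {Ω : Set (ℂ × E)} (hΩ : IsOpen Ω)
    (hG : DifferentiableOn ℂ G Ω) {K U : Set ℂ} (hK : IsCompact K) (hKc : Convex ℝ K) {x0 : ℂ}
    (hx0 : x0 ∈ K) (hU : IsOpen U) (hKU : K ⊆ U) {f : ℂ → E}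
    (hf : ∀ x ∈ U, HasDerivAt f (G (x, f x)) x) (hfΩ : ∀ x ∈ K, (x, f x) ∈ Ω) :
    ∃ V : Set ℂ, IsOpen V ∧ Convex ℝ V ∧ K ⊆ V ∧ V ⊆ U ∧ ∃ δ > 0, ∃ F : ℂ × E → E,
      DifferentiableOn ℂ F (V ×ˢ ball (f x0) δ) ∧
      (∀ q ∈ ball (f x0) δ, F (x0, q) = q) ∧
      (∀ x ∈ V, F (x, f x0) = f x) ∧
      (∀ x ∈ V, ∀ q ∈ ball (f x0) δ, (x, F (x, q)) ∈ Ω) ∧
      (∀ x ∈ V, ∀ q ∈ ball (f x0) δ, HasDerivAt (fun x => F (x, q)) (G (x, F (x, q))) x) := by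
  obtain ⟨V, h1, h2, h3, h4, δ, hδ, F, h5, h6, h7, h8, h9⟩ := exists_total (R := rhs G) hΩ
    (rhs_diff hG) (rhs_int hΩ hG) hK hKc hx0 hU hKU
    (fun x hx => hasFDerivAt_rhs.2 (hf x hx)) hfΩ
  exact ⟨V, h1, h2, h3, h4, δ, hδ, F, h5, h6, h7, h8, fun x hx q hq =>
    hasFDerivAt_rhs.1 (h9 x hx q hq)⟩

/-- LOCAL EXISTENCE with holomorphic dependence. -/
theorem exists_flow_local {G : ℂ × E → E} {Ω : Set (ℂ × E)} (hΩ : IsOpen Ω)
    (hG : DifferentiableOn ℂ G Ω) {x0 : ℂ} {q0 : E} (h0 : (x0, q0) ∈ Ω) :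
    ∃ r > 0, ∃ F : ℂ × E → E,
      DifferentiableOn ℂ F (ball x0 r ×ˢ ball q0 r) ∧
      (∀ q ∈ ball q0 r, F (x0, q) = q) ∧
      (∀ x ∈ ball x0 r, ∀ q ∈ ball q0 r, (x, F (x, q)) ∈ Ω) ∧
      (∀ x ∈ ball x0 r, ∀ q ∈ ball q0 r,
        HasDerivAt (fun x => F (x, q)) (G (x, F (x, q))) x) := by
  obtain ⟨r, hr, F, h1, h2, h3, h4⟩ := exists_total_local (R := rhs G) hΩ
    (rhs_diff hG) (rhs_int hΩ hG) h0
  exact ⟨r, hr, F, h1, h2, h3, fun x hx q hq => hasFDerivAt_rhs.1 (h4 x hx q hq)⟩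

/-- UNIQUENESS on preconnected open sets. -/
theorem unique_flow {G : ℂ × E → E} {Ω : Set (ℂ × E)} (hΩ : IsOpen Ω)
    (hG : DifferentiableOn ℂ G Ω) {U : Set ℂ} (hU : IsOpen U) (hUc : IsPreconnected U)
    {f g : ℂ → E} (hf : ∀ x ∈ U, HasDerivAt f (G (x, f x)) x)
    (hg : ∀ x ∈ U, HasDerivAt g (G (x, g x)) x) {x0 : ℂ} (hx0 : x0 ∈ U)
    (hfΩ : (x0, f x0) ∈ Ω) (h0 : f x0 = g x0) : EqOn f g U :=
  unique (R := rhs G) hΩ (rhs_diff hG) hU hUc (fun x hx => hasFDerivAt_rhs.2 (hf x hx))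
    (fun x hx => hasFDerivAt_rhs.2 (hg x hx)) hx0 hfΩ h0

end

/-! ### scalar equations -/

/-- the `M`-jet of `h` at `x` -/
noncomputable def jet (M : ℕ) (h : ℂ → ℂ) (x : ℂ) : Fin (M + 1) → ℂ := fun k => iteratedDeriv k h x

/-- first order system of the scalar equation -/
noncomputable def sys {M : ℕ} (φ : ℂ × (Fin (M + 1) → ℂ) → ℂ) :
    ℂ × (Fin (M + 1) → ℂ) → (Fin (M + 1) → ℂ) := fun p k =>
  if h : (k : ℕ) < M then p.2 ⟨k + 1, by omega⟩ else φ p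

theorem sys_diff {M : ℕ} {φ : ℂ × (Fin (M + 1) → ℂ) → ℂ} {Ω : Set (ℂ × (Fin (M + 1) → ℂ))}
    (hφ : DifferentiableOn ℂ φ Ω) : DifferentiableOn ℂ (sys φ) Ω := by
  rw [differentiableOn_pi]
  intro k
  by_cases h : (k : ℕ) < M
  · simp only [sys, dif_pos h]
    fun_prop
  · simp only [sys, dif_neg h]
    exact hφ

/-- analytic solutions of the scalar equation give solutions of the system -/
theorem hasDerivAt_jet {M : ℕ} {φ : ℂ × (Fin (M + 1) → ℂ) → ℂ} {h : ℂ → ℂ} {x : ℂ}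
    (ha : AnalyticAt ℂ h x) (he : iteratedDeriv (M + 1) h x = φ (x, jet M h x)) :
    HasDerivAt (jet M h) (sys φ (x, jet M h x)) x := by
  rw [hasDerivAt_pi]
  intro k
  have h1 : HasDerivAt (iteratedDeriv k h) (iteratedDeriv (k + 1) h x) x := by
    rw [iteratedDeriv_succ, iteratedDeriv_eq_iterate]
    exact (ha.iterated_deriv k).differentiableAt.hasDerivAt
  have h2 : sys φ (x, jet M h x) k = iteratedDeriv (k + 1) h x := by
    by_cases hk : (k : ℕ) < M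
    · simp only [sys, dif_pos hk, jet]
    · have : (k : ℕ) = M := by omega
      simp only [sys, dif_neg hk]
      rw [this, he]
  rw [h2]
  exact h1

/-- solutions of the system are jets of their first component -/
theorem jet_of_sys {M : ℕ} {φ : ℂ × (Fin (M + 1) → ℂ) → ℂ} {U : Set ℂ} (hU : IsOpen U)
    {z : ℂ → (Fin (M + 1) → ℂ)} (hz : ∀ x ∈ U, HasDerivAt z (sys φ (x, z x)) x) :
    (∀ x ∈ U, jet M (fun x => z x 0) x = z x) ∧
      ∀ x ∈ U, iteratedDeriv (M + 1) (fun x => z x 0) x = φ (x, z x) := by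
  have hk : ∀ k : ℕ, ∀ hk : k < M + 1, ∀ x ∈ U,
      iteratedDeriv k (fun x => z x 0) x = z x ⟨k, hk⟩ := by
    intro k
    induction k with
    | zero => intro _ x _; simp
    | succ k ih =>
      intro hk x hx
      rw [iteratedDeriv_succ]
      have h1 : iteratedDeriv k (fun x => z x 0) =ᶠ[𝓝 x] fun x => z x ⟨k, by omega⟩ := by
        filter_upwards [hU.mem_nhds hx] with y hy using ih (by omega) y hy
      rw [h1.deriv_eq]
      have h2 := (hasDerivAt_pi.1 (hz x hx) ⟨k, by omega⟩).deriv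
      rw [h2]
      simp only [sys, dif_pos (show k < M by omega)]
  refine ⟨fun x hx => ?_, fun x hx => ?_⟩
  · ext k; exact hk k k.2 x hx
  · rw [iteratedDeriv_succ]
    have h1 : iteratedDeriv M (fun x => z x 0) =ᶠ[𝓝 x] fun x => z x ⟨M, by omega⟩ := by
      filter_upwards [hU.mem_nhds hx] with y hy using hk M (by omega) y hy
    rw [h1.deriv_eq]
    have h2 := (hasDerivAt_pi.1 (hz x hx) ⟨M, by omega⟩).deriv
    rw [h2]
    simp [sys]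

/-- SCALAR EQUATION: perturbation of a given solution. -/
theorem exists_scalar {M : ℕ} {φ : ℂ × (Fin (M + 1) → ℂ) → ℂ} {Ω : Set (ℂ × (Fin (M + 1) → ℂ))}
    (hΩ : IsOpen Ω) (hφ : DifferentiableOn ℂ φ Ω) {K U : Set ℂ} (hK : IsCompact K)
    (hKc : Convex ℝ K) {x0 : ℂ} (hx0 : x0 ∈ K) (hU : IsOpen U) (hKU : K ⊆ U) {h : ℂ → ℂ}
    (hh : DifferentiableOn ℂ h U)
    (he : ∀ x ∈ U, iteratedDeriv (M + 1) h x = φ (x, jet M h x))
    (hhΩ : ∀ x ∈ K, (x, jet M h x) ∈ Ω) :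
    ∃ V : Set ℂ, IsOpen V ∧ Convex ℝ V ∧ K ⊆ V ∧ V ⊆ U ∧ ∃ δ > 0,
      ∃ H : ℂ × (Fin (M + 1) → ℂ) → ℂ,
      DifferentiableOn ℂ H (V ×ˢ ball (jet M h x0) δ) ∧
      (∀ q ∈ ball (jet M h x0) δ, jet M (fun x => H (x, q)) x0 = q) ∧
      (∀ x ∈ V, H (x, jet M h x0) = h x) ∧
      (∀ x ∈ V, ∀ q ∈ ball (jet M h x0) δ, (x, jet M (fun x => H (x, q)) x) ∈ Ω) ∧
      (∀ x ∈ V, ∀ q ∈ ball (jet M h x0) δ, iteratedDeriv (M + 1) (fun x => H (x, q)) x =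
        φ (x, jet M (fun x => H (x, q)) x)) ∧
      ∀ k : Fin (M + 1), DifferentiableOn ℂ (fun p : ℂ × (Fin (M + 1) → ℂ) =>
        iteratedDeriv k (fun x => H (x, p.2)) p.1) (V ×ˢ ball (jet M h x0) δ) := by
  have ha : AnalyticOnNhd ℂ h U := hh.analyticOnNhd hU
  obtain ⟨V, h1, h2, h3, h4, δ, hδ, F, h5, h6, h7, h8, h9⟩ := exists_flow hΩ (sys_diff hφ) hK hKc
    hx0 hU hKU (fun x hx => hasDerivAt_jet (ha x hx) (he x hx)) hhΩ
  have hj : ∀ q ∈ ball (jet M h x0) δ,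
      (∀ x ∈ V, jet M (fun x => F (x, q) 0) x = F (x, q)) ∧
      ∀ x ∈ V, iteratedDeriv (M + 1) (fun x => F (x, q) 0) x = φ (x, F (x, q)) := fun q hq =>
    jet_of_sys h1 (z := fun x => F (x, q)) fun x hx => h9 x hx q hq
  refine ⟨V, h1, h2, h3, h4, δ, hδ, fun p => F p 0, ?_, fun q hq => ?_, fun x hx => ?_,
    fun x hx q hq => ?_, fun x hx q hq => ?_, fun k => ?_⟩
  · exact (differentiableOn_pi.1 h5) 0
  · rw [(hj q hq).1 x0 (h3 hx0)]; exact h6 q hq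
  · change F (x, jet M h x0) 0 = h x
    rw [h7 x hx]; simp [jet]
  · rw [(hj q hq).1 x hx]; exact h8 x hx q hq
  · rw [(hj q hq).2 x hx, (hj q hq).1 x hx]
  · refine ((differentiableOn_pi.1 h5) k).congr fun p hp => ?_
    exact congrFun ((hj p.2 hp.2).1 p.1 hp.1) k

/-- SCALAR EQUATION: local existence. -/
theorem exists_scalar_local {M : ℕ} {φ : ℂ × (Fin (M + 1) → ℂ) → ℂ}
    {Ω : Set (ℂ × (Fin (M + 1) → ℂ))} (hΩ : IsOpen Ω) (hφ : DifferentiableOn ℂ φ Ω)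
    {x0 : ℂ} {q0 : Fin (M + 1) → ℂ} (h0 : (x0, q0) ∈ Ω) :
    ∃ r > 0, ∃ H : ℂ × (Fin (M + 1) → ℂ) → ℂ,
      DifferentiableOn ℂ H (ball x0 r ×ˢ ball q0 r) ∧
      (∀ q ∈ ball q0 r, jet M (fun x => H (x, q)) x0 = q) ∧
      (∀ x ∈ ball x0 r, ∀ q ∈ ball q0 r, (x, jet M (fun x => H (x, q)) x) ∈ Ω) ∧
      (∀ x ∈ ball x0 r, ∀ q ∈ ball q0 r, iteratedDeriv (M + 1) (fun x => H (x, q)) x =
        φ (x, jet M (fun x => H (x, q)) x)) ∧
      ∀ k : Fin (M + 1), DifferentiableOn ℂ (fun p : ℂ × (Fin (M + 1) → ℂ) =>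
        iteratedDeriv k (fun x => H (x, p.2)) p.1) (ball x0 r ×ˢ ball q0 r) := by
  obtain ⟨r, hr, F, h5, h6, h8, h9⟩ := exists_flow_local hΩ (sys_diff hφ) h0
  have hj : ∀ q ∈ ball q0 r,
      (∀ x ∈ ball x0 r, jet M (fun x => F (x, q) 0) x = F (x, q)) ∧
      ∀ x ∈ ball x0 r, iteratedDeriv (M + 1) (fun x => F (x, q) 0) x = φ (x, F (x, q)) :=
    fun q hq => jet_of_sys isOpen_ball (z := fun x => F (x, q)) fun x hx => h9 x hx q hq
  refine ⟨r, hr, fun p => F p 0, ?_, fun q hq => ?_,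
    fun x hx q hq => ?_, fun x hx q hq => ?_, fun k => ?_⟩
  · exact (differentiableOn_pi.1 h5) 0
  · rw [(hj q hq).1 x0 (mem_ball_self hr)]; exact h6 q hq
  · rw [(hj q hq).1 x hx]; exact h8 x hx q hq
  · rw [(hj q hq).2 x hx, (hj q hq).1 x hx]
  · refine ((differentiableOn_pi.1 h5) k).congr fun p hp => ?_
    exact congrFun ((hj p.2 hp.2).1 p.1 hp.1) k

/-- SCALAR EQUATION: uniqueness. -/
theorem unique_scalar {M : ℕ} {φ : ℂ × (Fin (M + 1) → ℂ) → ℂ} {Ω : Set (ℂ × (Fin (M + 1) → ℂ))}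
    (hΩ : IsOpen Ω) (hφ : DifferentiableOn ℂ φ Ω) {U : Set ℂ} (hU : IsOpen U)
    (hUc : IsPreconnected U) {f g : ℂ → ℂ} (hf : DifferentiableOn ℂ f U)
    (hg : DifferentiableOn ℂ g U)
    (hfe : ∀ x ∈ U, iteratedDeriv (M + 1) f x = φ (x, jet M f x))
    (hge : ∀ x ∈ U, iteratedDeriv (M + 1) g x = φ (x, jet M g x)) {x0 : ℂ} (hx0 : x0 ∈ U)
    (hfΩ : (x0, jet M f x0) ∈ Ω) (h0 : jet M f x0 = jet M g x0) : EqOn f g U := by
  have h := unique_flow hΩ (sys_diff hφ) hU hUc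
    (fun x hx => hasDerivAt_jet ((hf.analyticOnNhd hU) x hx) (hfe x hx))
    (fun x hx => hasDerivAt_jet ((hg.analyticOnNhd hU) x hx) (hge x hx)) hx0 hfΩ h0
  intro x hx
  have := congrFun (h hx) 0
  simpa [jet] using this

end Vale.Agent.P097.H531
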