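import Vale.Agent.P097.H531.ODE.Par

/-! Picard iteration along rays, near a given solution. -/

open Set Filter Metric Topology MeasureTheory

namespace Vale.Agent.P097.H531

variable {X E : Type*} [NormedAddCommGroup X] [NormedSpace ℂ X]
  [NormedAddCommGroup E] [NormedSpace ℂ E]

/-- point on the segment from `x0` to `x` -/
noncomputable def seg (x0 : X) (τ : ℝ) (x : X) : X := x0 + (τ : ℂ) • (x - x0)

theorem seg_mem {V : Set X} (hV : Convex ℝ V) {x0 x : X} (h0 : x0 ∈ V) (hx : x ∈ V) {τ : ℝ}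
    (hτ : τ ∈ Icc (0 : ℝ) 1) : seg x0 τ x ∈ V := by
  have := hV h0 hx (sub_nonneg.2 hτ.2) hτ.1 (by ring)
  have e : seg x0 τ x = (1 - τ) • x0 + τ • x := by
    rw [seg, Complex.coe_smul, smul_sub, sub_smul, one_smul]; abel
  rw [e]; exact this

theorem norm_seg_sub {x0 x : X} {τ : ℝ} (hτ : 0 ≤ τ) : ‖seg x0 τ x - x0‖ = τ * ‖x - x0‖ := by
  rw [seg, add_sub_cancel_left, norm_smul, Complex.norm_real, Real.norm_of_nonneg hτ]

@[simp] theorem seg_one (x0 x : X) : seg x0 1 x = x := by simp [seg]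
@[simp] theorem seg_zero (x0 x : X) : seg x0 0 x = x0 := by simp [seg]
@[simp] theorem seg_base (x0 : X) (τ : ℝ) : seg x0 τ x0 = x0 := by simp [seg]

theorem seg_seg (x0 x : X) (σ τ : ℝ) : seg x0 σ (seg x0 τ x) = seg x0 (σ * τ) x := by
  simp only [seg, add_sub_cancel_left, smul_smul, Complex.ofReal_mul]

theorem continuous_seg (x0 : X) : Continuous fun z : ℝ × X => seg x0 z.1 z.2 := by
  unfold seg; fun_prop

/-- Picard iterates along rays -/
noncomputable def pic (R : X × E → X →L[ℂ] E) (f : X → E) (x0 : X) : ℕ → X × E → E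
  | 0 => fun p => f p.1
  | n + 1 => fun p => p.2 + ∫ τ in (0 : ℝ)..1,
      R (seg x0 τ p.1, pic R f x0 n (seg x0 τ p.1, p.2)) (p.1 - x0)

theorem pic_succ (R : X × E → X →L[ℂ] E) (f : X → E) (x0 : X) (n : ℕ) (x : X) (q : E) :
    pic R f x0 (n + 1) (x, q) = q + ∫ τ in (0 : ℝ)..1,
      R (seg x0 τ x, pic R f x0 n (seg x0 τ x, q)) (x - x0) := rfl

/-- data of the Picard scheme -/
structure Sch (R : X × E → X →L[ℂ] E) (f : X → E) (x0 : X) (V : Set X) (Ω : Set (X × E))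
    (ρ Λ D δ : ℝ) : Prop where
  hV : IsOpen V
  hc : Convex ℝ V
  h0 : x0 ∈ V
  hΩ : IsOpen Ω
  hR : DifferentiableOn ℂ R Ω
  hf : DifferentiableOn ℂ f V
  hΛ : 0 ≤ Λ
  tube : ∀ x ∈ V, ∀ z, ‖z - f x‖ ≤ ρ → (x, z) ∈ Ω
  lip : ∀ x ∈ V, ∀ z z', ‖z - f x‖ ≤ ρ → ‖z' - f x‖ ≤ ρ → ‖R (x, z) - R (x, z')‖ ≤ Λ * ‖z - z'‖
  hD : ∀ x ∈ V, ‖x - x0‖ ≤ D
  hδ : 0 < δ
  hδρ : δ * Real.exp (Λ * D) ≤ ρ
  sol : ∀ x ∈ V, f x = f x0 + ∫ τ in (0 : ℝ)..1, R (seg x0 τ x, f (seg x0 τ x)) (x - x0)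

variable {R : X × E → X →L[ℂ] E} {f : X → E} {x0 : X} {V : Set X} {Ω : Set (X × E)}
  {ρ Λ D δ : ℝ}

theorem Sch.exp_le (S : Sch R f x0 V Ω ρ Λ D δ) {x : X} (hx : x ∈ V) :
    δ * Real.exp (Λ * ‖x - x0‖) ≤ ρ :=
  (mul_le_mul_of_nonneg_left (Real.exp_le_exp.2 (mul_le_mul_of_nonneg_left (S.hD x hx) S.hΛ))
    S.hδ.le).trans S.hδρ

theorem integral_exp_lin (a : ℝ) : ∫ τ in (0 : ℝ)..1, a * Real.exp (a * τ) = Real.exp a - 1 := by
  have h : ∀ τ ∈ uIcc (0 : ℝ) 1, HasDerivAt (fun τ => Real.exp (a * τ)) (a * Real.exp (a * τ)) τ := by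
    intro τ _
    have := ((hasDerivAt_id τ).const_mul a).exp
    simpa [mul_comm] using this
  rw [intervalIntegral.integral_eq_sub_of_hasDerivAt h]
  · simp
  · exact (by fun_prop : Continuous fun τ => a * Real.exp (a * τ)).intervalIntegrable _ _

/-- continuity of the integrand -/
theorem Sch.cont_int (S : Sch R f x0 V Ω ρ Λ D δ) {g : X × E → E} {B : Set E}
    (hg : ContinuousOn g (V ×ˢ B)) (hgρ : ∀ x ∈ V, ∀ q ∈ B, ‖g (x, q) - f x‖ ≤ ρ) :
    ContinuousOn (fun z : ℝ × (X × E) => R (seg x0 z.1 z.2.1, g (seg x0 z.1 z.2.1, z.2.2))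
      (z.2.1 - x0)) (Icc (0 : ℝ) 1 ×ˢ (V ×ˢ B)) := by
  have h1 : ContinuousOn (fun z : ℝ × (X × E) => (seg x0 z.1 z.2.1, z.2.2))
      (Icc (0 : ℝ) 1 ×ˢ (V ×ˢ B)) := by
    apply Continuous.continuousOn
    exact ((continuous_seg x0).comp (by fun_prop : Continuous fun z : ℝ × (X × E) =>
      (z.1, z.2.1))).prodMk (by fun_prop)
  have hm : MapsTo (fun z : ℝ × (X × E) => (seg x0 z.1 z.2.1, z.2.2))
      (Icc (0 : ℝ) 1 ×ˢ (V ×ˢ B)) (V ×ˢ B) := fun z hz =>
    ⟨seg_mem S.hc S.h0 hz.2.1 hz.1, hz.2.2⟩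
  have h2 : ContinuousOn (fun z : ℝ × (X × E) => g (seg x0 z.1 z.2.1, z.2.2))
      (Icc (0 : ℝ) 1 ×ˢ (V ×ˢ B)) := ContinuousOn.comp hg h1 hm
  have h3 : ContinuousOn (fun z : ℝ × (X × E) => R (seg x0 z.1 z.2.1,
      g (seg x0 z.1 z.2.1, z.2.2))) (Icc (0 : ℝ) 1 ×ˢ (V ×ˢ B)) := by
    refine ContinuousOn.comp (t := Ω) S.hR.continuousOn (ContinuousOn.prodMk ?_ h2) ?_
    · exact continuous_fst.comp_continuousOn h1
    · intro z hz
      exact S.tube _ (hm hz).1 _ (hgρ _ (hm hz).1 _ (hm hz).2)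
  exact h3.clm_apply (by fun_prop)

/-- integral bound -/
theorem Sch.int_bound (S : Sch R f x0 V Ω ρ Λ D δ) {g g' : X × E → E} {q : E}
    (hg : ContinuousOn (fun x => g (x, q)) V) (hg' : ContinuousOn (fun x => g' (x, q)) V)
    (hgρ : ∀ x ∈ V, ‖g (x, q) - f x‖ ≤ ρ) (hgρ' : ∀ x ∈ V, ‖g' (x, q) - f x‖ ≤ ρ)
    {b : ℝ → ℝ} (hb : Continuous b) (hgb : ∀ x ∈ V, ‖g (x, q) - g' (x, q)‖ ≤ b ‖x - x0‖)
    {x : X} (hx : x ∈ V) :
    ‖(∫ τ in (0 : ℝ)..1, R (seg x0 τ x, g (seg x0 τ x, q)) (x - x0)) -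
      ∫ τ in (0 : ℝ)..1, R (seg x0 τ x, g' (seg x0 τ x, q)) (x - x0)‖ ≤
      ∫ τ in (0 : ℝ)..1, Λ * ‖x - x0‖ * b (τ * ‖x - x0‖) := by
  have hseg : Continuous fun τ : ℝ => seg x0 τ x :=
    (continuous_seg x0).comp (by fun_prop : Continuous fun τ : ℝ => (τ, x))
  have hcont : ∀ g : X × E → E, ContinuousOn (fun x => g (x, q)) V →
      (∀ x ∈ V, ‖g (x, q) - f x‖ ≤ ρ) →
      IntervalIntegrable (fun τ : ℝ => R (seg x0 τ x, g (seg x0 τ x, q)) (x - x0)) volume 0 1 := by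
    intro g hg hgρ
    apply ContinuousOn.intervalIntegrable_of_Icc zero_le_one
    have h1 : ContinuousOn (fun τ : ℝ => g (seg x0 τ x, q)) (Icc 0 1) :=
      ContinuousOn.comp (g := fun x => g (x, q)) (t := V) hg hseg.continuousOn
        fun τ hτ => seg_mem S.hc S.h0 hx hτ
    have h3 : ContinuousOn (fun τ : ℝ => R (seg x0 τ x, g (seg x0 τ x, q))) (Icc 0 1) := by
      refine ContinuousOn.comp (t := Ω) S.hR.continuousOn
        (ContinuousOn.prodMk hseg.continuousOn h1) ?_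
      intro τ hτ
      exact S.tube _ (seg_mem S.hc S.h0 hx hτ) _ (hgρ _ (seg_mem S.hc S.h0 hx hτ))
    exact h3.clm_apply continuousOn_const
  rw [← intervalIntegral.integral_sub (hcont g hg hgρ) (hcont g' hg' hgρ')]
  apply intervalIntegral.norm_integral_le_of_norm_le zero_le_one
  · refine Eventually.of_forall fun τ hτ => ?_
    have hτ' : τ ∈ Icc (0 : ℝ) 1 := Ioc_subset_Icc_self hτ
    have hm := seg_mem S.hc S.h0 hx hτ'
    rw [← sub_apply]
    calc _ ≤ ‖R (seg x0 τ x, g (seg x0 τ x, q)) - R (seg x0 τ x, g' (seg x0 τ x, q))‖ *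
          ‖x - x0‖ := ContinuousLinearMap.le_opNorm _ _
      _ ≤ (Λ * ‖g (seg x0 τ x, q) - g' (seg x0 τ x, q)‖) * ‖x - x0‖ :=
          mul_le_mul_of_nonneg_right (S.lip _ hm _ _ (hgρ _ hm) (hgρ' _ hm)) (norm_nonneg _)
      _ ≤ (Λ * b (τ * ‖x - x0‖)) * ‖x - x0‖ := by
          apply mul_le_mul_of_nonneg_right _ (norm_nonneg _)
          apply mul_le_mul_of_nonneg_left _ S.hΛ
          rw [← norm_seg_sub hτ'.1]
          exact hgb _ hm
      _ = _ := by ring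
  · exact (by fun_prop : Continuous fun τ : ℝ => Λ * ‖x - x0‖ * b (τ * ‖x - x0‖)).intervalIntegrable _ _

theorem Sch.A (S : Sch R f x0 V Ω ρ Λ D δ) [FiniteDimensional ℂ X] [FiniteDimensional ℂ E]
    (n : ℕ) : DifferentiableOn ℂ (pic R f x0 n) (V ×ˢ ball (f x0) δ) ∧
      ∀ x ∈ V, ∀ q ∈ ball (f x0) δ,
        ‖pic R f x0 n (x, q) - f x‖ ≤ δ * Real.exp (Λ * ‖x - x0‖) := by
  have : CompleteSpace E := FiniteDimensional.complete ℂ E
  induction n with
  | zero =>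
    refine ⟨?_, fun x hx q hq => ?_⟩
    · exact S.hf.comp differentiableOn_fst fun p hp => hp.1
    · simp only [pic, sub_self, norm_zero]
      have := S.hδ
      positivity
  | succ n ih =>
    obtain ⟨ihd, ihb⟩ := ih
    have ihρ : ∀ x ∈ V, ∀ q ∈ ball (f x0) δ, ‖pic R f x0 n (x, q) - f x‖ ≤ ρ := fun x hx q hq =>
      (ihb x hx q hq).trans (S.exp_le hx)
    refine ⟨?_, fun x hx q hq => ?_⟩
    · have h := differentiableOn_intervalIntegral (H := fun (τ : ℝ) (z : X × E) =>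
        R (seg x0 τ z.1, pic R f x0 n (seg x0 τ z.1, z.2)) (z.1 - x0))
        (S.hV.prod isOpen_ball) zero_le_one (S.cont_int ihd.continuousOn ihρ) (fun τ hτ => ?_)
      · exact differentiableOn_snd.add h
      · have h1 : DifferentiableOn ℂ (fun z : X × E => (seg x0 τ z.1, z.2))
            (V ×ˢ ball (f x0) δ) := by
          unfold seg
          fun_prop
        have hm : MapsTo (fun z : X × E => (seg x0 τ z.1, z.2)) (V ×ˢ ball (f x0) δ)
            (V ×ˢ ball (f x0) δ) := fun z hz => ⟨seg_mem S.hc S.h0 hz.1 hτ, hz.2⟩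
        have h3 : DifferentiableOn ℂ (fun z : X × E => R (seg x0 τ z.1,
            pic R f x0 n (seg x0 τ z.1, z.2))) (V ×ˢ ball (f x0) δ) := by
          refine DifferentiableOn.comp (t := Ω) S.hR
            (DifferentiableOn.prodMk ?_ (ihd.comp h1 hm)) ?_
          · unfold seg; fun_prop
          · intro z hz
            exact S.tube _ (hm hz).1 _ (ihρ _ (hm hz).1 _ (hm hz).2)
        exact h3.clm_apply (by fun_prop)
    · have hf' : ContinuousOn (fun x => (fun p : X × E => f p.1) (x, q)) V := S.hf.continuousOn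
      have hp : ContinuousOn (fun x => pic R f x0 n (x, q)) V :=
        ihd.continuousOn.comp (by fun_prop) fun x hx => ⟨hx, hq⟩
      have hρ0 : 0 ≤ ρ := by
        have := S.exp_le S.h0; have h2 := S.hδ
        have h3 := Real.exp_pos (Λ * ‖x0 - x0‖)
        nlinarith [mul_pos h2 h3]
      have key := S.int_bound (g := pic R f x0 n) (g' := fun p => f p.1) (q := q) hp hf'
        (fun x hx => ihρ x hx q hq) (fun x hx => by simpa using hρ0)
        (b := fun t => δ * Real.exp (Λ * t)) (by fun_prop) (fun x hx => ihb x hx q hq) hx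
      have hI : ∫ τ in (0 : ℝ)..1, Λ * ‖x - x0‖ * (δ * Real.exp (Λ * (τ * ‖x - x0‖))) =
          δ * (Real.exp (Λ * ‖x - x0‖) - 1) := by
        rw [← integral_exp_lin, ← intervalIntegral.integral_const_mul]
        congr 1; ext τ; ring_nf
      rw [hI] at key
      have hq' : ‖q - f x0‖ ≤ δ := by rw [← dist_eq_norm]; exact (mem_ball.1 hq).le
      have e : pic R f x0 (n + 1) (x, q) - f x = (q - f x0) +
          ((∫ τ in (0 : ℝ)..1, R (seg x0 τ x, pic R f x0 n (seg x0 τ x, q)) (x - x0)) -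
            ∫ τ in (0 : ℝ)..1, R (seg x0 τ x, f (seg x0 τ x)) (x - x0)) := by
        conv_lhs => rw [S.sol x hx]
        simp only [pic]; abel
      rw [e]
      calc _ ≤ ‖q - f x0‖ + _ := norm_add_le _ _
        _ ≤ δ + δ * (Real.exp (Λ * ‖x - x0‖) - 1) := add_le_add hq' key
        _ = _ := by ring

theorem Sch.Aρ (S : Sch R f x0 V Ω ρ Λ D δ) [FiniteDimensional ℂ X] [FiniteDimensional ℂ E]
    (n : ℕ) {x : X} (hx : x ∈ V) {q : E} (hq : q ∈ ball (f x0) δ) :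
    ‖pic R f x0 n (x, q) - f x‖ ≤ ρ := ((S.A n).2 x hx q hq).trans (S.exp_le hx)

theorem Sch.Ac (S : Sch R f x0 V Ω ρ Λ D δ) [FiniteDimensional ℂ X] [FiniteDimensional ℂ E]
    (n : ℕ) {q : E} (hq : q ∈ ball (f x0) δ) : ContinuousOn (fun x => pic R f x0 n (x, q)) V :=
  (S.A n).1.continuousOn.comp (by fun_prop) fun x hx => ⟨hx, hq⟩

theorem Sch.B (S : Sch R f x0 V Ω ρ Λ D δ) [FiniteDimensional ℂ X] [FiniteDimensional ℂ E]
    {q : E} (hq : q ∈ ball (f x0) δ) (n : ℕ) : ∀ x ∈ V,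
      ‖pic R f x0 (n + 1) (x, q) - pic R f x0 n (x, q)‖ ≤ δ * (Λ * ‖x - x0‖) ^ n / n.factorial := by
  induction n with
  | zero =>
    intro x hx
    have e : pic R f x0 (0 + 1) (x, q) - pic R f x0 0 (x, q) = q - f x0 := by
      simp only [pic]
      conv_lhs => rw [S.sol x hx]
      abel
    rw [e, ← dist_eq_norm]
    simpa using (mem_ball.1 hq).le
  | succ n ih =>
    intro x hx
    have key := S.int_bound (q := q) (S.Ac (n + 1) hq) (S.Ac n hq)
      (fun x hx => S.Aρ (n + 1) hx hq) (fun x hx => S.Aρ n hx hq)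
      (b := fun t => δ * (Λ * t) ^ n / n.factorial) (by fun_prop) ih hx
    have hI : ∫ τ in (0 : ℝ)..1, Λ * ‖x - x0‖ * (δ * (Λ * (τ * ‖x - x0‖)) ^ n / n.factorial) =
        δ * (Λ * ‖x - x0‖) ^ (n + 1) / (n + 1).factorial := by
      have : ∀ τ : ℝ, Λ * ‖x - x0‖ * (δ * (Λ * (τ * ‖x - x0‖)) ^ n / n.factorial) =
          (δ * (Λ * ‖x - x0‖) ^ (n + 1) / n.factorial) * τ ^ n := by
        intro τ; rw [show Λ * (τ * ‖x - x0‖) = (Λ * ‖x - x0‖) * τ by ring, mul_pow]; ring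
      simp only [this]
      rw [intervalIntegral.integral_const_mul, integral_pow, Nat.factorial_succ]
      push_cast
      field_simp
      ring
    rw [hI] at key
    have e : pic R f x0 (n + 1 + 1) (x, q) - pic R f x0 (n + 1) (x, q) =
          ((∫ τ in (0 : ℝ)..1, R (seg x0 τ x, pic R f x0 (n + 1) (seg x0 τ x, q)) (x - x0)) -
            ∫ τ in (0 : ℝ)..1, R (seg x0 τ x, pic R f x0 n (seg x0 τ x, q)) (x - x0)) := by
      rw [pic_succ _ _ _ (n + 1), pic_succ _ _ _ n, add_sub_add_left_eq_sub]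
    rw [e]
    exact key

/-- the solution along rays -/
theorem Sch.exists_ray (S : Sch R f x0 V Ω ρ Λ D δ) [FiniteDimensional ℂ X]
    [FiniteDimensional ℂ E] :
    ∃ Z : X × E → E, DifferentiableOn ℂ Z (V ×ˢ ball (f x0) δ) ∧
      (∀ x ∈ V, ∀ q ∈ ball (f x0) δ, ‖Z (x, q) - f x‖ ≤ ρ) ∧
      (∀ x ∈ V, Z (x, f x0) = f x) ∧
      (∀ x ∈ V, ∀ q ∈ ball (f x0) δ, Z (x, q) =
        q + ∫ τ in (0 : ℝ)..1, R (seg x0 τ x, Z (seg x0 τ x, q)) (x - x0)) := by
  have : CompleteSpace E := FiniteDimensional.complete ℂ E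
  set u : ℕ → ℝ := fun n => δ * (Λ * D) ^ n / n.factorial with hu
  have hus : Summable u := by
    have := (Real.summable_pow_div_factorial (Λ * D)).mul_left δ
    simpa [hu, mul_div_assoc] using this
  have hD0 : 0 ≤ D := (norm_nonneg _).trans (S.hD x0 S.h0)
  have hu0 : ∀ n, 0 ≤ u n := fun n => by
    have h1 := S.hδ; have h2 := S.hΛ
    positivity
  set g : ℕ → X × E → E := fun n p => pic R f x0 (n + 1) p - pic R f x0 n p with hg
  have hgd : ∀ n, DifferentiableOn ℂ (g n) (V ×ˢ ball (f x0) δ) := fun n =>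
    (S.A (n + 1)).1.sub (S.A n).1
  have hgu : ∀ n, ∀ p ∈ V ×ˢ ball (f x0) δ, ‖g n p‖ ≤ u n := by
    rintro n ⟨x, q⟩ ⟨hx, hq⟩
    refine (S.B hq n x hx).trans ?_
    have h1 := S.hδ; have h2 := S.hΛ; have h3 := S.hD x hx
    simp only [hu]
    gcongr
  set Z : X × E → E := fun p => f p.1 + ∑' n, g n p with hZ
  have hZd : DifferentiableOn ℂ Z (V ×ˢ ball (f x0) δ) :=
    (S.A 0).1.add (differentiableOn_tsum hus (S.hV.prod isOpen_ball) hgd hgu)
  have hpart : ∀ N p, ∑ n ∈ Finset.range N, g n p = pic R f x0 N p - f p.1 := by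
    intro N p
    simp only [hg]
    rw [Finset.sum_range_sub (fun n => pic R f x0 n p)]
    rfl
  have htail : ∀ N, ∀ p ∈ V ×ˢ ball (f x0) δ, ‖pic R f x0 N p - Z p‖ ≤ ∑' n, u (n + N) := by
    intro N p hp
    have hs : Summable fun n => g n p := Summable.of_norm_bounded hus fun n => hgu n p hp
    have e : pic R f x0 N p - Z p = - ∑' n, g (n + N) p := by
      have h1 := hs.sum_add_tsum_nat_add N
      have h2 := hpart N p
      simp only [hZ]
      rw [← h1, h2]; abel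
    rw [e, norm_neg]
    exact tsum_of_norm_bounded ((summable_nat_add_iff N).2 hus).hasSum fun n => hgu (n + N) p hp
  have htend : Tendsto (fun N => ∑' n, u (n + N)) atTop (𝓝 0) := tendsto_sum_nat_add u
  have hlim : ∀ p ∈ V ×ˢ ball (f x0) δ, Tendsto (fun N => pic R f x0 N p) atTop (𝓝 (Z p)) := by
    intro p hp
    rw [tendsto_iff_norm_sub_tendsto_zero]
    exact squeeze_zero (fun _ => norm_nonneg _) (fun N => htail N p hp) htend
  have hZρ : ∀ x ∈ V, ∀ q ∈ ball (f x0) δ, ‖Z (x, q) - f x‖ ≤ ρ := by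
    intro x hx q hq
    have h1 := ((hlim (x, q) ⟨hx, hq⟩).sub_const (f x)).norm
    exact le_of_tendsto h1 (Eventually.of_forall fun N => S.Aρ N hx hq)
  refine ⟨Z, hZd, hZρ, fun x hx => ?_, fun x hx q hq => ?_⟩
  · have h0 : ∀ N, ∀ x ∈ V, pic R f x0 N (x, f x0) = f x := by
      intro N
      induction N with
      | zero => intro x _; rfl
      | succ N ih =>
        intro x hx
        simp only [pic]
        conv_rhs => rw [S.sol x hx]
        congr 1
        apply intervalIntegral.integral_congr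
        intro τ hτ
        rw [uIcc_of_le zero_le_one] at hτ
        simp only
        rw [ih _ (seg_mem S.hc S.h0 hx hτ)]
    have h1 := hlim (x, f x0) ⟨hx, mem_ball_self S.hδ⟩
    have h2 : (fun N => pic R f x0 N (x, f x0)) = fun _ => f x := by
      ext N; exact h0 N x hx
    rw [h2] at h1
    exact (tendsto_nhds_unique h1 tendsto_const_nhds)
  · have hZc : ContinuousOn (fun x => Z (x, q)) V :=
      hZd.continuousOn.comp (by fun_prop) fun x hx => ⟨hx, hq⟩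
    have h1 : Tendsto (fun N => pic R f x0 (N + 1) (x, q)) atTop (𝓝 (Z (x, q))) :=
      (tendsto_add_atTop_iff_nat 1).2 (hlim (x, q) ⟨hx, hq⟩)
    have h2 : Tendsto (fun N => ∫ τ in (0 : ℝ)..1,
        R (seg x0 τ x, pic R f x0 N (seg x0 τ x, q)) (x - x0)) atTop
        (𝓝 (∫ τ in (0 : ℝ)..1, R (seg x0 τ x, Z (seg x0 τ x, q)) (x - x0))) := by
      rw [tendsto_iff_norm_sub_tendsto_zero]
      refine squeeze_zero (fun _ => norm_nonneg _) (fun N => ?_)
        (g := fun N => Λ * ‖x - x0‖ * ∑' n, u (n + N)) ?_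
      · have := S.int_bound (q := q) (S.Ac N hq) hZc (fun x hx => S.Aρ N hx hq)
          (fun x hx => hZρ x hx q hq) (b := fun _ => ∑' n, u (n + N)) continuous_const
          (fun x hx => htail N (x, q) ⟨hx, hq⟩) hx
        simpa using this
      · simpa using htend.const_mul (Λ * ‖x - x0‖)
    have h3 : Tendsto (fun N => pic R f x0 (N + 1) (x, q)) atTop
        (𝓝 (q + ∫ τ in (0 : ℝ)..1, R (seg x0 τ x, Z (seg x0 τ x, q)) (x - x0))) := by
      simp only [pic]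
      exact h2.const_add q
    exact tendsto_nhds_unique h1 h3

end Vale.Agent.P097.H531
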