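import Vale.Agent.P097.H531.ODE.Pic

/-! From the ray equation to the total differential equation. -/

open Set Filter Metric Topology MeasureTheory

namespace Vale.Agent.P097.H531

variable {X E : Type*} [NormedAddCommGroup X] [NormedSpace ℂ X]
  [NormedAddCommGroup E] [NormedSpace ℂ E]

theorem hasDerivAt_seg (x0 x : X) (s : ℝ) : HasDerivAt (fun τ : ℝ => seg x0 τ x) (x - x0) s := by
  have h : HasDerivAt (fun τ : ℝ => (τ : ℂ)) 1 s := Complex.ofRealCLM.hasDerivAt
  have := (h.smul_const (x - x0)).const_add x0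
  simpa [seg] using this

theorem hasDerivAt_comp_seg {F : Type*} [NormedAddCommGroup F] [NormedSpace ℂ F] {g : X → F}
    {g' : X →L[ℂ] F} {x0 x : X} {s : ℝ} (hg : HasFDerivAt g g' (seg x0 s x)) :
    HasDerivAt (fun τ : ℝ => g (seg x0 τ x)) (g' (x - x0)) s := by
  have h1 := (hg.restrictScalars ℝ).comp_hasDerivAt s (hasDerivAt_seg x0 x s)
  exact h1

/-- a solution of the total differential equation satisfies the integral equation along rays -/
theorem sol_int [CompleteSpace E] {R : X × E → X →L[ℂ] E} {f : X → E} {x0 : X} {V : Set X}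
    (hc : Convex ℝ V) (h0 : x0 ∈ V)
    (hf : ∀ x ∈ V, HasFDerivAt f (R (x, f x)) x) (hRc : ContinuousOn (fun x => R (x, f x)) V)
    {x : X} (hx : x ∈ V) :
    f x = f x0 + ∫ τ in (0 : ℝ)..1, R (seg x0 τ x, f (seg x0 τ x)) (x - x0) := by
  have hseg : Continuous fun τ : ℝ => seg x0 τ x :=
    (continuous_seg x0).comp (by fun_prop : Continuous fun τ : ℝ => (τ, x))
  rw [intervalIntegral.integral_eq_sub_of_hasDerivAt (f := fun τ : ℝ => f (seg x0 τ x))]
  · simp
  · intro τ hτ
    rw [uIcc_of_le zero_le_one] at hτ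
    exact hasDerivAt_comp_seg (hf _ (seg_mem hc h0 hx hτ))
  · apply ContinuousOn.intervalIntegrable_of_Icc zero_le_one
    have : ContinuousOn (fun τ : ℝ => R (seg x0 τ x, f (seg x0 τ x))) (Icc 0 1) :=
      ContinuousOn.comp (g := fun x => R (x, f x)) hRc hseg.continuousOn
        fun τ hτ => seg_mem hc h0 hx hτ
    exact this.clm_apply continuousOn_const

/-- Euler identity -/
theorem euler [CompleteSpace E] {r : X → X →L[ℂ] E} {z : X → E} {x0 : X} {V : Set X}
    (hV : IsOpen V) (hc : Convex ℝ V) (h0 : x0 ∈ V) (hz : DifferentiableOn ℂ z V)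
    (hrc : ContinuousOn r V) {q : E}
    (hint : ∀ x ∈ V, z x = q + ∫ τ in (0 : ℝ)..1, r (seg x0 τ x) (x - x0))
    {y : X} (hy : y ∈ V) : fderiv ℂ z y (y - x0) = r y (y - x0) := by
  have hseg : Continuous fun τ : ℝ => seg x0 τ y :=
    (continuous_seg x0).comp (by fun_prop : Continuous fun τ : ℝ => (τ, y))
  set k : ℝ → E := fun σ => r (seg x0 σ y) (y - x0) with hk
  have hkc : ContinuousOn k (Icc 0 1) := by
    have : ContinuousOn (fun τ : ℝ => r (seg x0 τ y)) (Icc 0 1) :=
      ContinuousOn.comp hrc hseg.continuousOn fun τ hτ => seg_mem hc h0 hy hτ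
    exact this.clm_apply continuousOn_const
  have h1 : ∀ s ∈ Icc (0 : ℝ) 1, z (seg x0 s y) = q + ∫ σ in (0 : ℝ)..s, k σ := by
    intro s hs
    rw [hint _ (seg_mem hc h0 hy hs)]
    congr 1
    have h2 := intervalIntegral.smul_integral_comp_mul_right (a := 0) (b := 1) k s
    simp only [zero_mul, one_mul] at h2
    rw [← h2, ← intervalIntegral.integral_smul]
    congr 1
    ext τ
    simp only [hk, seg_seg]
    have : seg x0 s y - x0 = (s : ℂ) • (y - x0) := by simp [seg]
    rw [this, map_smul, Complex.coe_smul]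
  have hd1 : HasDerivWithinAt (fun s : ℝ => z (seg x0 s y)) (fderiv ℂ z y (y - x0))
      (Icc 0 1) 1 := by
    have h3 : HasFDerivAt z (fderiv ℂ z y) (seg x0 1 y) := by
      rw [seg_one]; exact (hz.differentiableAt (hV.mem_nhds hy)).hasFDerivAt
    exact (hasDerivAt_comp_seg h3).hasDerivWithinAt
  have hd2 : HasDerivWithinAt (fun s : ℝ => q + ∫ σ in (0 : ℝ)..s, k σ) (r y (y - x0))
      (Icc 0 1) 1 := by
    have h4 : HasDerivWithinAt (fun s : ℝ => ∫ σ in (0 : ℝ)..s, k σ) (k 1) (Icc 0 1) 1 := by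
      have : Fact ((1 : ℝ) ∈ Icc (0 : ℝ) 1) := ⟨⟨zero_le_one, le_rfl⟩⟩
      apply intervalIntegral.integral_hasDerivWithinAt_right
      · exact hkc.intervalIntegrable_of_Icc zero_le_one
      · exact hkc.stronglyMeasurableAtFilter_nhdsWithin measurableSet_Icc 1
      · exact hkc 1 ⟨zero_le_one, le_rfl⟩
    have h5 := h4.const_add q
    simpa [hk] using h5
  have hd3 : HasDerivWithinAt (fun s : ℝ => z (seg x0 s y)) (r y (y - x0)) (Icc 0 1) 1 :=
    hd2.congr (fun s hs => h1 s hs) (h1 1 ⟨zero_le_one, le_rfl⟩)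
  exact (uniqueDiffOn_Icc zero_lt_one 1 ⟨zero_le_one, le_rfl⟩).eq_deriv _ hd1 hd3

/-- integrability along the solution turns the Euler identity into the full equation -/
theorem total_of_euler' [FiniteDimensional ℂ X] [FiniteDimensional ℂ E]
    {R : X × E → X →L[ℂ] E} {Ω : Set (X × E)} (hΩ : IsOpen Ω) (hR : DifferentiableOn ℂ R Ω)
    {z : X → E} {x0 : X} {V : Set X} (hV : IsOpen V) (hc : Convex ℝ V) (h0 : x0 ∈ V)
    (hz : DifferentiableOn ℂ z V) (hzΩ : ∀ x ∈ V, (x, z x) ∈ Ω)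
    (hI : ∀ x ∈ V, ∀ u v : X, fderiv ℂ R (x, z x) (u, R (x, z x) u) v =
      fderiv ℂ R (x, z x) (v, R (x, z x) v) u)
    (he : ∀ y ∈ V, fderiv ℂ z y (y - x0) = R (y, z y) (y - x0))
    {y : X} (hy : y ∈ V) : HasFDerivAt z (R (y, z y)) y := by
  have : CompleteSpace E := FiniteDimensional.complete ℂ E
  have : CompleteSpace X := FiniteDimensional.complete ℂ X
  set r : X → X →L[ℂ] E := fun x => R (x, z x) with hr
  have hzd : ∀ x ∈ V, HasFDerivAt z (fderiv ℂ z x) x := fun x hx =>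
    (hz.differentiableAt (hV.mem_nhds hx)).hasFDerivAt
  have hz' : DifferentiableOn ℂ (fderiv ℂ z) V :=
    ((Hol.analyticOnNhd_of_differentiableOn hV hz).fderiv).differentiableOn
  have hrd : ∀ x ∈ V, HasFDerivAt r ((fderiv ℂ R (x, z x)).comp
      ((ContinuousLinearMap.id ℂ X).prod (fderiv ℂ z x))) x := by
    intro x hx
    have h1 := (hR.differentiableAt (hΩ.mem_nhds (hzΩ x hx))).hasFDerivAt
    exact h1.comp x ((hasFDerivAt_id x).prodMk (hzd x hx))
  set A : X → X →L[ℂ] E := fun x => fderiv ℂ z x - r x with hA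
  have hz'd : ∀ x ∈ V, HasFDerivAt (fderiv ℂ z) (fderiv ℂ (fderiv ℂ z) x) x := fun x hx =>
    (hz'.differentiableAt (hV.mem_nhds hx)).hasFDerivAt
  -- Euler identity differentiated
  have key1 : ∀ x ∈ V, ∀ u, fderiv ℂ (fderiv ℂ z) x u (x - x0) + fderiv ℂ z x u =
      fderiv ℂ R (x, z x) (u, fderiv ℂ z x u) (x - x0) + r x u := by
    intro x hx u
    have h1 : HasFDerivAt (fun x => fderiv ℂ z x (x - x0)) _ x :=
      (hz'd x hx).clm_apply ((hasFDerivAt_id x).sub_const x0)
    have h2 : HasFDerivAt (fun x => r x (x - x0)) _ x :=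
      (hrd x hx).clm_apply ((hasFDerivAt_id x).sub_const x0)
    have h3 : HasFDerivAt (fun x => fderiv ℂ z x (x - x0)) _ x :=
      h2.congr_of_eventuallyEq (by
        filter_upwards [hV.mem_nhds hx] with x' hx' using he x' hx')
    have h4 := congrArg (fun L => L u) (h1.unique h3)
    simp only [add_apply, ContinuousLinearMap.coe_comp,
      Function.comp_apply, ContinuousLinearMap.flip_apply, ContinuousLinearMap.prod_apply,
      ContinuousLinearMap.coe_id', id_eq] at h4
    rw [add_comm] at h4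
    rw [h4]
    abel
  have hsym : ∀ x ∈ V, ∀ u v, fderiv ℂ (fderiv ℂ z) x u v = fderiv ℂ (fderiv ℂ z) x v u := by
    intro x hx u v
    have h1 : ∀ᶠ y in 𝓝 x, HasFDerivAt z (fderiv ℂ z y) y := by
      filter_upwards [hV.mem_nhds hx] with x' hx' using hzd x' hx'
    exact second_derivative_symmetric_of_eventually h1 (hz'd x hx) u v
  -- the ray ODE
  suffices hAy : A y = 0 by
    have h1 := hzd y hy
    have h2 : fderiv ℂ z y = R (y, z y) := sub_eq_zero.1 hAy
    rwa [h2] at h1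
  ext u
  set v0 : X := y - x0 with hv0
  set φ : ℝ → E := fun s => (s : ℂ) • A (seg x0 s y) u with hφ
  set φ' : ℝ → E := fun s => fderiv ℂ R (seg x0 s y, z (seg x0 s y)) (0, φ s) v0 with hφ'
  have hsegsub : ∀ s : ℝ, seg x0 s y - x0 = (s : ℂ) • v0 := fun s => by simp [seg, hv0]
  have hAv : ∀ s ∈ Icc (0 : ℝ) 1, (s : ℂ) • A (seg x0 s y) v0 = 0 := by
    intro s hs
    have h1 := he _ (seg_mem hc h0 hy hs)
    rw [hsegsub s, map_smul, map_smul] at h1
    rw [hA]
    simp only [sub_apply, smul_sub, hr]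
    rw [h1, sub_self]
  have hd : ∀ s ∈ Icc (0 : ℝ) 1, HasDerivAt φ (φ' s) s := by
    intro s hs
    have hm := seg_mem hc h0 hy hs
    have h1 : HasFDerivAt A (fderiv ℂ (fderiv ℂ z) (seg x0 s y) -
        (fderiv ℂ R (seg x0 s y, z (seg x0 s y))).comp
          ((ContinuousLinearMap.id ℂ X).prod (fderiv ℂ z (seg x0 s y)))) (seg x0 s y) :=
      (hz'd _ hm).sub (hrd _ hm)
    have h2 := hasDerivAt_comp_seg h1
    have h3 : HasDerivAt (fun τ : ℝ => A (seg x0 τ y) u)
        (fderiv ℂ (fderiv ℂ z) (seg x0 s y) v0 u -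
        fderiv ℂ R (seg x0 s y, z (seg x0 s y)) (v0, fderiv ℂ z (seg x0 s y) v0) u) s := by
      have h4 := (((ContinuousLinearMap.apply ℂ E u).restrictScalars ℝ).hasFDerivAt
        (x := A (seg x0 s y))).comp_hasDerivAt s h2
      exact h4
    have h5 : HasDerivAt (fun τ : ℝ => (τ : ℂ)) 1 s := Complex.ofRealCLM.hasDerivAt
    have h6 : HasDerivAt φ ((s : ℂ) • (fderiv ℂ (fderiv ℂ z) (seg x0 s y) v0 u -
        fderiv ℂ R (seg x0 s y, z (seg x0 s y)) (v0, fderiv ℂ z (seg x0 s y) v0) u) +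
        (1 : ℂ) • A (seg x0 s y) u) s := h5.smul h3
    refine h6.congr_deriv ?_
    have e1 := key1 _ hm u
    rw [hsegsub s, hsym _ hm u _, map_smul, map_smul] at e1
    have e2 := hI (seg x0 s y) hm u v0
    have e3 := hAv s hs
    set p := seg x0 s y with hp
    set L := fderiv ℂ R (p, z p) with hL
    -- linearity in the second slot
    have e4 : ∀ w, L (w, fderiv ℂ z p w) = L (w, R (p, z p) w) + L (0, A p w) := by
      intro w
      rw [← map_add]
      congr 1
      simp [hA, hr]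
    have e5 : (s : ℂ) • L (0, A p v0) = 0 := by
      rw [← map_smul]
      have : (s : ℂ) • ((0 : X), A p v0) = 0 := by
        rw [Prod.smul_mk, e3, smul_zero]; rfl
      rw [this, map_zero]
    have e6 : φ' s = (s : ℂ) • L (0, A p u) v0 := by
      simp only [hφ', hφ, ← hp, ← hL]
      have : ((0 : X), (s : ℂ) • A p u) = (s : ℂ) • ((0 : X), A p u) := by
        rw [Prod.smul_mk, smul_zero]
      rw [this, map_smul]; rfl
    have e7 : A p u = fderiv ℂ z p u - R (p, z p) u := rfl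
    have e8 : (s : ℂ) • L (0, A p v0) u = 0 := by
      have := congrArg (fun M : X →L[ℂ] E => M u) e5
      simpa using this
    rw [e6, one_smul, e4 v0, smul_sub, add_apply, smul_add, e8, add_zero]
    rw [e4 u, add_apply, smul_add] at e1
    have e9 : (s : ℂ) • fderiv ℂ (fderiv ℂ z) p v0 u = (s : ℂ) • L (u, R (p, z p) u) v0 +
        (s : ℂ) • L (0, A p u) v0 - A p u := by
      rw [e7, ← e7]
      have : (s : ℂ) • fderiv ℂ (fderiv ℂ z) p v0 u = (s : ℂ) • L (u, R (p, z p) u) v0 +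
        (s : ℂ) • L (0, A p u) v0 + r p u - fderiv ℂ z p u := by
        rw [← e1]; simp
      rw [this, e7]; simp only [hr]; abel
    rw [e9, e2]; abel
  -- Groenwall
  have hcont : ContinuousOn φ (Icc 0 1) := fun s hs => (hd s hs).continuousAt.continuousWithinAt
  have hLc : ContinuousOn (fun s : ℝ => ‖fderiv ℂ R (seg x0 s y, z (seg x0 s y))‖) (Icc 0 1) := by
    have h1 : ContinuousOn (fun p => ‖fderiv ℂ R p‖) Ω :=
      (continuous_norm (E := X × E →L[ℂ] X →L[ℂ] E)).comp_continuousOn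
        (Hol.continuousOn_fderiv_of_differentiableOn hΩ hR)
    have hseg : Continuous fun τ : ℝ => seg x0 τ y :=
      (continuous_seg x0).comp (by fun_prop : Continuous fun τ : ℝ => (τ, y))
    refine ContinuousOn.comp (g := fun p => ‖fderiv ℂ R p‖) (t := Ω) h1
      (hseg.continuousOn.prodMk ?_) fun τ hτ => hzΩ _ (seg_mem hc h0 hy hτ)
    exact ContinuousOn.comp hz.continuousOn hseg.continuousOn fun τ hτ => seg_mem hc h0 hy hτ
  obtain ⟨C, hC'⟩ := isCompact_Icc.exists_bound_of_continuousOn hLc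
  have hC : ∀ s ∈ Icc (0 : ℝ) 1, ‖fderiv ℂ R (seg x0 s y, z (seg x0 s y))‖ ≤ C := fun s hs =>
    (le_abs_self _).trans (hC' s hs)
  have hC0 : 0 ≤ C := (abs_nonneg _).trans (hC' 0 ⟨le_rfl, zero_le_one⟩)
  have hgr := norm_le_gronwallBound_of_norm_deriv_right_le (f := φ) (f' := φ') (δ := 0)
    (K := C * ‖v0‖) (ε := 0) (a := 0) (b := 1) hcont
    (fun s hs => (hd s (Ico_subset_Icc_self hs)).hasDerivWithinAt) (by simp [hφ]) (by
      intro s hs
      have hs' := Ico_subset_Icc_self hs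
      simp only [hφ', add_zero]
      calc _ ≤ ‖fderiv ℂ R (seg x0 s y, z (seg x0 s y)) (0, φ s)‖ * ‖v0‖ :=
            ContinuousLinearMap.le_opNorm _ _
        _ ≤ (‖fderiv ℂ R (seg x0 s y, z (seg x0 s y))‖ * ‖((0 : X), φ s)‖) * ‖v0‖ :=
            mul_le_mul_of_nonneg_right (ContinuousLinearMap.le_opNorm _ _) (norm_nonneg _)
        _ ≤ (C * ‖φ s‖) * ‖v0‖ := by
            apply mul_le_mul_of_nonneg_right _ (norm_nonneg _)
            have : ‖((0 : X), φ s)‖ = ‖φ s‖ := by simp [Prod.norm_def]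
            rw [this]
            exact mul_le_mul_of_nonneg_right (hC s hs') (norm_nonneg _)
        _ = _ := by ring) 1 ⟨zero_le_one, le_rfl⟩
  rw [gronwallBound_ε0_δ0, norm_le_zero_iff] at hgr
  simpa [hφ] using hgr

/-- integrability turns the Euler identity into the full equation -/
theorem total_of_euler [FiniteDimensional ℂ X] [FiniteDimensional ℂ E]
    {R : X × E → X →L[ℂ] E} {Ω : Set (X × E)} (hΩ : IsOpen Ω) (hR : DifferentiableOn ℂ R Ω)
    (hI : ∀ p ∈ Ω, ∀ u v : X, fderiv ℂ R p (u, R p u) v = fderiv ℂ R p (v, R p v) u)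
    {z : X → E} {x0 : X} {V : Set X} (hV : IsOpen V) (hc : Convex ℝ V) (h0 : x0 ∈ V)
    (hz : DifferentiableOn ℂ z V) (hzΩ : ∀ x ∈ V, (x, z x) ∈ Ω)
    (he : ∀ y ∈ V, fderiv ℂ z y (y - x0) = R (y, z y) (y - x0))
    {y : X} (hy : y ∈ V) : HasFDerivAt z (R (y, z y)) y :=
  total_of_euler' hΩ hR hV hc h0 hz hzΩ (fun x hx => hI _ (hzΩ x hx)) he hy

end Vale.Agent.P097.H531
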